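import Crest.Agent.R292.Meas

/-!
A generic array `R` codes every real `Y` into the degrees below `W R Y`; hence an automorphism of
the degrees is represented, at each point, by one of countably many Borel maps.
-/

set_option autoImplicit false

namespace Crest.Agent.R292

open Topology Filter Set TopologicalSpace PiNat

/-- The `j`-th column. -/
def col (j : ℕ) (R : G) : G := fun n => R (Nat.pair j n)

/-- Choose, for every `i`, column `2 i` or `2 i + 1` of `R` according to `Y i`. -/
def W (R Y : G) : G := fun m => R (Nat.pair (2 * m.unpair.1 + (Y m.unpair.1).toNat) m.unpair.2)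

lemma red_col (j : ℕ) (R : G) : Red (col j R) R :=
  Red.reindex (Primrec₂.natPair.comp (Primrec.const j) Primrec.id) R

lemma col_W (i : ℕ) (R Y : G) : col i (W R Y) = col (2 * i + (Y i).toNat) R := by
  funext n; simp [col, W]

lemma red_W (R Y : G) : Red (W R Y) (jn Y R) := by
  have h1 : Primrec fun m : ℕ => 2 * m.unpair.1 :=
    Primrec.nat_double.comp (Primrec.fst.comp Primrec.unpair)
  have h2 : Primrec fun m : ℕ => m.unpair.2 := Primrec.snd.comp Primrec.unpair
  refine Red.of_tt (u := fun m => 2 * m.unpair.1 + 2 * (Nat.pair (2 * m.unpair.1) m.unpair.2 +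
      Nat.pair (2 * m.unpair.1 + 1) m.unpair.2) + 2)
    (F := fun l m => l.getD (2 * Nat.pair (2 * m.unpair.1 +
      (l.getD (2 * m.unpair.1) false).toNat) m.unpair.2 + 1) false) ?_ ?_ ?_
  · refine Primrec.nat_add.comp (Primrec.nat_add.comp h1 (Primrec.nat_double.comp
      (Primrec.nat_add.comp (Primrec₂.natPair.comp h1 h2)
        (Primrec₂.natPair.comp (Primrec.succ.comp h1) h2)))) (Primrec.const 2)
  · refine Primrec.to₂ (f := fun p : List Bool × ℕ => p.1.getD (2 * Nat.pair (2 * p.2.unpair.1 +
      (p.1.getD (2 * p.2.unpair.1) false).toNat) p.2.unpair.2 + 1) false) ?_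
    refine (Primrec.list_getD false).comp Primrec.fst (Primrec.nat_double_succ.comp
      (Primrec₂.natPair.comp (Primrec.nat_add.comp (h1.comp Primrec.snd) ?_)
        (h2.comp Primrec.snd)))
    exact (Primrec.dom_bool Bool.toNat).comp
      ((Primrec.list_getD false).comp Primrec.fst (h1.comp Primrec.snd))
  · intro m l hl hm
    rw [hl.getD (i := 2 * m.unpair.1) (by omega), jn_even, hl.getD, jn_odd]
    · rfl
    · cases Y m.unpair.1
      · simp only [Bool.toNat_false, add_zero]; omega
      · simp only [Bool.toNat_true]; omega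

lemma continuous_W : Continuous fun p : G × G => W p.1 p.2 := by
  refine continuous_pi fun m => ?_
  unfold W
  have h : (fun p : G × G => p.1 (Nat.pair (2 * m.unpair.1 + (p.2 m.unpair.1).toNat) m.unpair.2)) =
      (fun q : Bool × Bool × Bool => bif q.1 then q.2.1 else q.2.2) ∘ fun p : G × G =>
        (p.2 m.unpair.1, p.1 (Nat.pair (2 * m.unpair.1 + 1) m.unpair.2),
          p.1 (Nat.pair (2 * m.unpair.1) m.unpair.2)) := by
    funext p
    simp only [Function.comp]
    cases p.2 m.unpair.1 <;> simp
  rw [h]
  exact continuous_of_discreteTopology.comp (by fun_prop)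

lemma continuous_col (j : ℕ) : Continuous (col j) := by
  unfold col; fun_prop

/-- Make the two choices equal from level `ℓ` on. -/
def sym (ℓ : ℕ) (R : G) : G := fun m =>
  if 2 * ℓ ≤ m.unpair.1 then R (Nat.pair (2 * (m.unpair.1 / 2)) m.unpair.2) else R m

lemma generic_R (φ : List Bool → List Bool) (i : ℕ) :
    ∀ᶠ R in residual G, ∀ Y : G, Y i = false → ¬Rz φ (W R Y) (col (2 * i + 1) R) := by
  set Q := (closure {p : G × G | Rz φ p.1 p.2})ᶜ with hQ
  have hQo : IsOpen Q := isClosed_closure.isOpen_compl
  have hQd : Dense Q := dense_compl_closure_graph φ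
  have hK : IsCompact {Y : G | Y i = false} :=
    (isClosed_eq (continuous_apply i) continuous_const).isCompact
  have hmain : {R : G | ∀ Y : G, Y i = false → (W R Y, col (2 * i + 1) R) ∈ Q} ∈ residual G := by
    refine residual_of_dense_open ?_ ?_
    · rw [isOpen_iff_mem_nhds]
      intro R hR
      refine hK.eventually_forall_of_forall_eventually
        (P := fun R Y => (W R Y, col (2 * i + 1) R) ∈ Q) fun Y hY => ?_
      have hc : Continuous fun z : G × G => (W z.1 z.2, col (2 * i + 1) z.1) :=
        continuous_W.prodMk ((continuous_col _).comp continuous_fst)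
      exact (hQo.preimage hc).mem_nhds (hR Y hY)
    · rw [dense_iff_inter_open]
      rintro U hU ⟨R₀, hR₀⟩
      obtain ⟨k₀, hk₀⟩ := exists_cylinder_subset hU hR₀
      set ℓ := k₀ + i + 1 with hℓ
      let ex : (Fin ℓ → Bool) → G := fun τ n => if h : n < ℓ then τ ⟨n, h⟩ else false
      have hgen : ∀ τ : G, τ i = false →
          Gen fun R : G => (W (sym ℓ R) τ, col (2 * i + 1) R) := by
        intro τ hτ
        refine gen_of_add ?_ ?_ ?_
        · intro x y
          refine Prod.ext ?_ rfl
          funext m
          simp only [W, sym, Prod.fst_add, Pi.add_apply]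
          split_ifs <;> rfl
        · refine Continuous.prodMk ?_ (continuous_col _)
          refine continuous_pi fun m => ?_
          simp only [W, sym]
          split_ifs <;> fun_prop
        · rintro ⟨A, C⟩
          refine ⟨fun m => if m.unpair.1 = 2 * i + 1 then C m.unpair.2
            else A (Nat.pair (m.unpair.1 / 2) m.unpair.2), Prod.ext ?_ ?_⟩
          · funext m
            simp only [W, sym, Nat.unpair_pair]
            have h1 : (2 * m.unpair.1 + (τ m.unpair.1).toNat) / 2 = m.unpair.1 := by
              cases τ m.unpair.1 <;> simp <;> omega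
            have h2 : 2 * m.unpair.1 / 2 = m.unpair.1 := by omega
            have h3 : 2 * m.unpair.1 ≠ 2 * i + 1 := by omega
            have h4 : 2 * m.unpair.1 + (τ m.unpair.1).toNat ≠ 2 * i + 1 := by
              by_cases h : m.unpair.1 = i
              · rw [h, hτ]; simp
              · cases τ m.unpair.1 <;> simp <;> omega
            rw [h1, h2, if_neg h3, if_neg h4, Nat.pair_unpair]
            simp
          · funext n
            simp [col]
      have h1 : ∀ᶠ R in residual G, ∀ τ : Fin ℓ → Bool, ex τ i = false →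
          (W (sym ℓ R) (ex τ), col (2 * i + 1) R) ∈ Q := by
        refine eventually_countable_forall.2 fun τ => ?_
        by_cases hτ : ex τ i = false
        · filter_upwards [(hgen _ hτ).ev (residual_of_dense_open hQo hQd)] with R hR _
          exact hR
        · exact Eventually.of_forall fun R h => absurd h hτ
      obtain ⟨R, hR1, hR2⟩ := exists_of_residual (isOpen_cylinder _ R₀ k₀)
        ⟨R₀, self_mem_cylinder _ _⟩ h1
      refine ⟨sym ℓ R, hk₀ fun m hm => ?_, fun Y hY => ?_⟩
      · have : m.unpair.1 ≤ m := Nat.unpair_left_le m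
        simp only [sym]
        rw [if_neg (by omega)]
        exact hR1 m hm
      · have h2 := hR2 (fun n => Y n) (by simp only [ex]; rw [dif_pos (by omega)]; exact hY)
        have h3 : W (sym ℓ R) (ex fun n => Y n) = W (sym ℓ R) Y := by
          funext m
          simp only [W, sym, Nat.unpair_pair, ex]
          by_cases h : m.unpair.1 < ℓ
          · rw [dif_pos h]
          · rw [dif_neg h]
            have h1 : (2 * m.unpair.1 + (Y m.unpair.1).toNat) / 2 = m.unpair.1 := by
              cases Y m.unpair.1 <;> simp <;> omega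
            have h2 : (2 * m.unpair.1 + false.toNat) / 2 = m.unpair.1 := by simp
            rw [if_pos (by omega), if_pos (by omega), h1, h2]
        have h4 : col (2 * i + 1) (sym ℓ R) = col (2 * i + 1) R := by
          funext n
          simp only [col, sym, Nat.unpair_pair]
          rw [if_neg (by omega)]
        rw [h4, ← h3]
        exact h2
  filter_upwards [hmain] with R hR Y hY hr
  exact hR Y hY (subset_closure hr)

lemma exists_R : ∃ R : G, ∀ (i : ℕ) (Y : G), Red (col (2 * i + 1) R) (W R Y) ↔ Y i = true := by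
  have h : ∀ᶠ R in residual G, ∀ φ : PR, ∀ i : ℕ, ∀ Y : G, Y i = false →
      ¬Rz φ.1 (W R Y) (col (2 * i + 1) R) :=
    eventually_countable_forall.2 fun φ => eventually_countable_forall.2 fun i =>
      generic_R φ.1 i
  obtain ⟨R, -, hR⟩ := exists_of_residual isOpen_univ univ_nonempty h
  refine ⟨R, fun i Y => ⟨fun hr => ?_, fun hY => ?_⟩⟩
  · obtain ⟨φ, hφ⟩ := red_iff_PR.1 hr
    by_contra hc
    exact hR φ i Y (by simpa using hc) hφ
  · have := red_col i (W R Y)
    rwa [col_W, hY] at this

/-- A map on Cantor space inducing an automorphism of the degrees, with a section `q`. -/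
structure Aut (p q : G → G) : Prop where
  iff : ∀ A B, Red (p A) (p B) ↔ Red A B
  le : ∀ A, Red (p (q A)) A
  ge : ∀ A, Red A (p (q A))

namespace Aut

variable {p q : G → G}

lemma q_le (h : Aut p q) {A B : G} : Red (q A) B ↔ Red A (p B) := by
  rw [← h.iff]
  exact ⟨fun h1 => (h.ge A).trans h1, fun h1 => (h.le A).trans h1⟩

lemma le_q (h : Aut p q) {A B : G} : Red A (q B) ↔ Red (p A) B := by
  rw [← h.iff]
  exact ⟨fun h1 => h1.trans (h.le B), fun h1 => h1.trans (h.ge B)⟩

lemma jn_le (h : Aut p q) (A B : G) : Red (jn (p A) (p B)) (p (jn A B)) :=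
  Red.pair ((h.iff _ _).2 (Red.left _ _)) ((h.iff _ _).2 (Red.right _ _))

lemma le_jn (h : Aut p q) (A B : G) : Red (p (jn A B)) (jn (p A) (p B)) :=
  h.le_q.1 (Red.pair (h.le_q.2 (Red.left _ _)) (h.le_q.2 (Red.right _ _)))

lemma red_jn (h : Aut p q) {A B C : G} (hC : Red C (jn A B)) : Red (p C) (jn (p A) (p B)) :=
  ((h.iff _ _).2 hC).trans (h.le_jn A B)

lemma red_jn3 (h : Aut p q) {A B D C : G} (hC : Red C (jn (jn A B) D)) :
    Red (p C) (jn (jn (p A) (p B)) (p D)) :=
  (h.red_jn hC).trans (Red.jn_mono (h.le_jn A B) (Red.refl _))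

/-- Elimination of a generic parameter. -/
lemma elim (h : Aut p q) {y w : G} (hy : ∃ᶠ x in residual G, Red y (jn (p x) w)) : Red y w := by
  have h1 : Red (q y) (q w) := by
    refine red_of_freq (hy.mono fun x hx => ?_)
    refine h.q_le.2 (hx.trans ?_)
    exact (Red.jn_mono (Red.refl _) (h.ge w)).trans (h.jn_le _ _)
  exact (h.q_le.1 h1).trans (h.le w)

/-- Countably many Borel maps represent `p`. -/
lemma exists_borel (h : Aut p q) :
    ∃ f : PR → G → G, (∀ j, Measurable (f j)) ∧ ∀ X, ∃ j, f j X = p X := by
  classical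
  obtain ⟨R, hR⟩ := exists_R
  refine ⟨fun φ X i => decide (Red (q (col (2 * i + 1) R)) (lim φ.1 (jn X (q R)))), ?_, ?_⟩
  · intro φ
    refine measurable_pi_lambda _ fun i => measurable_decide (measurable_Red measurable_const ?_)
    exact (measurable_lim φ.1).comp (measurable_jn measurable_id measurable_const)
  · intro X
    have h1 : Red (q (W R (p X))) (jn X (q R)) := by
      refine h.q_le.2 ((red_W _ _).trans ?_)
      exact (Red.jn_mono (Red.refl _) (h.ge R)).trans (h.jn_le _ _)
    obtain ⟨φ, hφ⟩ := red_iff_PR.1 h1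
    refine ⟨φ, ?_⟩
    funext i
    rw [Bool.eq_iff_iff, decide_eq_true_eq, hφ.lim_eq, ← hR i (p X), h.q_le]
    exact ⟨fun h2 => h2.trans (h.le _), fun h2 => h2.trans (h.ge _)⟩

lemma eventually_ne (h : Aut p q) (y : G) : ∀ᶠ x in residual G, p x ≠ y := by
  filter_upwards [eventually_not_red (q y)] with x hx hxy
  exact hx (h.le_q.2 (hxy ▸ Red.refl _))

end Aut

end Crest.Agent.R292
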