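import Crest.Agent.R292.Meas

/-!
Cantor space as the ring of power series over the field with two elements.
-/

set_option autoImplicit false

namespace Crest.Agent.R292

open Topology Filter Set TopologicalSpace PiNat

/-- Multiplication by the variable. -/
def T (u : G) : G := fun n => if 1 ≤ n then u (n - 1) else false

/-- Left shift. -/
def L (u : G) : G := fun n => u (n + 1)

/-- Multiplication by a power of the variable. -/
def sh (k : ℕ) (u : G) : G := fun n => if k ≤ n then u (n - k) else false

/-- Product of power series. -/
def M (z b : G) : G := fun n => ∑ ij ∈ Finset.HasAntidiagonal.antidiagonal n, z ij.1 * b ij.2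

lemma add_self (a : G) : a + a = 0 := by
  funext n; exact BooleanRing.add_self _

lemma add_add_cancel (a b : G) : a + b + b = a := by
  rw [add_assoc, add_self, add_zero]

lemma T_add (a b : G) : T (a + b) = T a + T b := by
  funext n; simp only [T, Pi.add_apply]; split_ifs <;> rfl

lemma L_add (a b : G) : L (a + b) = L a + L b := rfl

lemma L_zero : L 0 = 0 := rfl

lemma sh_add (k : ℕ) (a b : G) : sh k (a + b) = sh k a + sh k b := by
  funext n; simp only [sh, Pi.add_apply]; split_ifs <;> rfl

lemma M_add (z a b : G) : M z (a + b) = M z a + M z b := by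
  funext n; simp only [M, Pi.add_apply, mul_add, Finset.sum_add_distrib]

lemma M_zero (z : G) : M z 0 = 0 := by
  funext n; simp [M]

@[simp] lemma T_zero_apply (u : G) : T u 0 = false := rfl

@[simp] lemma T_succ_apply (u : G) (n : ℕ) : T u (n + 1) = u n := by simp [T]

lemma L_T (u : G) : L (T u) = u := by funext n; simp [L]

lemma T_L {u : G} (h : u 0 = false) : T (L u) = u := by
  funext n
  cases n with
  | zero => simp [h]
  | succ n => simp [L]

lemma sh_zero (u : G) : sh 0 u = u := by funext n; simp [sh]

lemma sh_succ (k : ℕ) (u : G) : sh (k + 1) u = T (sh k u) := by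
  funext n
  cases n with
  | zero => simp [sh]
  | succ n => simp [sh]

lemma M_T (z b : G) : M z (T b) = T (M z b) := by
  funext n
  cases n with
  | zero => simp [M, ← Bool.zero_eq_false]
  | succ n =>
    simp only [M, T_succ_apply, Finset.Nat.sum_antidiagonal_succ', T_zero_apply,
      ← Bool.zero_eq_false, mul_zero, zero_add]

lemma M_sh (z b : G) (k : ℕ) : M z (sh k b) = sh k (M z b) := by
  induction k with
  | zero => simp [sh_zero]
  | succ k ih => rw [sh_succ, sh_succ, M_T, ih]

lemma T_sh (b : G) (k : ℕ) : T (sh k b) = sh k (T b) := by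
  induction k with
  | zero => simp [sh_zero]
  | succ k ih => rw [sh_succ, sh_succ, ih]

lemma M_zero_apply (z b : G) : M z b 0 = (z 0 && b 0) := by
  simp [M, Bool.mul_eq_and]

lemma L_M (z b : G) : L (M z b) = M (L z) b + (if z 0 = true then L b else 0) := by
  funext n
  simp only [L, M, Finset.Nat.sum_antidiagonal_succ, Pi.add_apply]
  rw [add_comm]
  congr 1
  cases z 0 <;> simp [L, Bool.mul_eq_and, Bool.zero_eq_false]

@[fun_prop] lemma continuous_T : Continuous T := by
  refine continuous_pi fun n => ?_
  unfold T
  split_ifs <;> fun_prop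

@[fun_prop] lemma continuous_L : Continuous L := by
  unfold L; fun_prop

@[fun_prop] lemma continuous_sh (k : ℕ) : Continuous (sh k) := by
  refine continuous_pi fun n => ?_
  unfold sh
  split_ifs <;> fun_prop

@[fun_prop] lemma continuous_M (z : G) : Continuous (M z) := by
  unfold M; fun_prop

lemma red_T (b : G) : Red (T b) b := by
  refine Red.of_tt (u := fun n => n) (F := fun l n => if 1 ≤ n then l.getD (n - 1) false else false)
    Primrec.id ?_ ?_
  · refine Primrec.to₂ (f := fun p : List Bool × ℕ =>
      if 1 ≤ p.2 then p.1.getD (p.2 - 1) false else false) ?_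
    exact Primrec.ite (Primrec.nat_le.comp (Primrec.const 1) Primrec.snd)
      ((Primrec.list_getD false).comp Primrec.fst
        (Primrec.nat_sub.comp Primrec.snd (Primrec.const 1))) (Primrec.const false)
  · intro n l hl hn
    unfold T
    split_ifs with h
    · exact hl.getD (by omega)
    · rfl

lemma red_L (b : G) : Red (L b) b := Red.reindex Primrec.succ b

lemma red_of_T (b : G) : Red b (T b) := by
  have := red_L (T b)
  rwa [L_T] at this

lemma M_eq_rec (z b : G) (n : ℕ) : M z b n =
    Nat.rec (motive := fun _ => Bool) false (fun i acc => xor acc (z i && b (n - i))) (n + 1) := by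
  unfold M
  rw [Finset.Nat.sum_antidiagonal_eq_sum_range_succ (fun i j => z i * b j)]
  rw [Nat.succ_eq_add_one]
  generalize n + 1 = k
  induction k with
  | zero => rfl
  | succ k ih => rw [Finset.sum_range_succ, ih]; rfl

lemma red_M (z b : G) : Red (M z b) (jn b z) := by
  refine Red.of_tt (u := fun n => 2 * n + 2) (F := fun l n =>
    Nat.rec (motive := fun _ => Bool) false
      (fun i acc => xor acc (l.getD (2 * i + 1) false && l.getD (2 * (n - i)) false)) (n + 1))
    (Primrec.succ.comp Primrec.nat_double_succ) ?_ ?_
  · refine Primrec.to₂ (f := fun p : List Bool × ℕ => Nat.rec (motive := fun _ => Bool) false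
      (fun i acc => xor acc (p.1.getD (2 * i + 1) false && p.1.getD (2 * (p.2 - i)) false))
        (p.2 + 1)) ?_
    refine Primrec.nat_rec' (h := fun (p : List Bool × ℕ) (r : ℕ × Bool) =>
      xor r.2 (p.1.getD (2 * r.1 + 1) false && p.1.getD (2 * (p.2 - r.1)) false))
      (Primrec.succ.comp Primrec.snd) (Primrec.const false) ?_
    refine Primrec.to₂ (f := fun q : (List Bool × ℕ) × (ℕ × Bool) =>
      xor q.2.2 (q.1.1.getD (2 * q.2.1 + 1) false && q.1.1.getD (2 * (q.1.2 - q.2.1)) false)) ?_
    refine (Primrec.dom_bool₂ xor).comp (Primrec.snd.comp Primrec.snd) (Primrec.and.comp ?_ ?_)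
    · exact (Primrec.list_getD false).comp (Primrec.fst.comp Primrec.fst)
        (Primrec.nat_double_succ.comp (Primrec.fst.comp Primrec.snd))
    · exact (Primrec.list_getD false).comp (Primrec.fst.comp Primrec.fst)
        (Primrec.nat_double.comp (Primrec.nat_sub.comp (Primrec.snd.comp Primrec.fst)
          (Primrec.fst.comp Primrec.snd)))
  · intro n l hl hn
    rw [M_eq_rec]
    have : ∀ k ≤ n + 1, Nat.rec (motive := fun _ => Bool) false
        (fun i acc => xor acc (l.getD (2 * i + 1) false && l.getD (2 * (n - i)) false)) k =
        Nat.rec (motive := fun _ => Bool) false (fun i acc => xor acc (z i && b (n - i))) k := by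
      intro k hk
      induction k with
      | zero => rfl
      | succ k ih =>
        simp only
        rw [ih (by omega), hl.getD (by omega), hl.getD (by omega), jn_odd, jn_even]
    exact this _ le_rfl

/-- The affine embedding onto a cylinder. -/
def emb (x : G) (k : ℕ) (u : G) : G := x + sh k u

lemma emb_mem (x : G) (k : ℕ) (u : G) : emb x k u ∈ cylinder x k := by
  intro i hi
  simp only [emb, sh, Pi.add_apply]
  rw [if_neg (by omega), ← Bool.zero_eq_false, add_zero]

lemma emb_mem_succ (x : G) (k : ℕ) {u : G} (hu : u 0 = false) : emb x k u ∈ cylinder x (k + 1) := by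
  intro i hi
  simp only [emb, sh, Pi.add_apply]
  split_ifs with h
  · have : i - k = 0 := by omega
    rw [this, hu, ← Bool.zero_eq_false, add_zero]
  · rw [← Bool.zero_eq_false, add_zero]

lemma range_emb (x : G) (k : ℕ) : range (emb x k) = cylinder x k := by
  refine Subset.antisymm ?_ fun y hy => ⟨fun n => (y + x) (n + k), ?_⟩
  · rintro _ ⟨u, rfl⟩
    exact emb_mem x k u
  · funext n
    simp only [emb, sh, Pi.add_apply]
    split_ifs with h
    · rw [Nat.sub_add_cancel h, add_comm (y n), ← add_assoc, BooleanRing.add_self, zero_add]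
    · rw [← Bool.zero_eq_false, add_zero, hy n (by omega)]

lemma isOpenEmbedding_emb (x : G) (k : ℕ) : IsOpenEmbedding (emb x k) := by
  refine ⟨?_, ?_⟩
  · refine Function.LeftInverse.isEmbedding (f := fun y n => (y + x) (n + k)) ?_ (by fun_prop) ?_
    · intro u
      funext n
      simp only [emb, sh, Pi.add_apply]
      rw [if_pos (by omega), Nat.add_sub_cancel, add_comm (x _), add_assoc, BooleanRing.add_self,
        add_zero]
    · unfold emb; fun_prop
  · rw [range_emb]; exact isOpen_cylinder _ _ _

lemma gen_emb (x : G) (k : ℕ) : Gen (emb x k) :=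
  tendsto_residual_of_isOpenMap (isOpenEmbedding_emb x k).continuous
    (isOpenEmbedding_emb x k).isOpenMap

end Crest.Agent.R292
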