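import Mathlib

/-!
General Baire category facts: Kuratowski–Ulam, localisation of nonmeagre sets.
-/

set_option autoImplicit false

namespace Crest.Agent.R292

open Topology Filter Set TopologicalSpace

section General

variable {X Y : Type} [TopologicalSpace X] [TopologicalSpace Y]

/-- Kuratowski–Ulam. -/
lemma kuratowski_ulam [SecondCountableTopology Y] {P : X × Y → Prop}
    (h : ∀ᶠ p in residual (X × Y), P p) :
    ∀ᶠ x in residual X, ∀ᶠ y in residual Y, P (x, y) := by
  have key : (residual X).curry (residual Y) ≤ residual (X × Y) := by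
    apply le_countableGenerate_iff_of_countableInterFilter.mpr
    rintro U ⟨hU, hd⟩
    change U ∈ (residual X).curry (residual Y)
    rw [mem_curry_iff]
    have h1 : ∀ V ∈ countableBasis Y, ∀ᶠ x in residual X, ∃ y ∈ V, (x, y) ∈ U := by
      intro V hV
      have hVo : IsOpen V := isOpen_of_mem_countableBasis hV
      have hVn : V.Nonempty := nonempty_of_mem_countableBasis hV
      have : {x | ∃ y ∈ V, (x, y) ∈ U} = Prod.fst '' (U ∩ univ ×ˢ V) := by
        ext x; simp; tauto
      change {x | ∃ y ∈ V, (x, y) ∈ U} ∈ residual X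
      refine residual_of_dense_open ?_ ?_
      · rw [this]
        exact isOpenMap_fst _ (hU.inter (isOpen_univ.prod hVo))
      · rw [dense_iff_inter_open]
        intro W hW hWn
        obtain ⟨⟨x, y⟩, ⟨hx, hy⟩, hxy⟩ :=
          dense_iff_inter_open.1 hd (W ×ˢ V) (hW.prod hVo) (hWn.prod hVn)
        exact ⟨x, hx, y, hy, hxy⟩
    have h2 := (eventually_countable_ball (countable_countableBasis Y)).2 h1
    filter_upwards [h2] with x hx
    refine residual_of_dense_open (hU.preimage (by fun_prop : Continuous fun y : Y => (x, y))) ?_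
    rw [(isBasis_countableBasis Y).dense_iff]
    intro V hV _
    obtain ⟨y, hy, hxy⟩ := hx V hV
    exact ⟨y, hy, hxy⟩
  exact eventually_curry_iff.1 (key h)

lemma frequently_exists_countable {ι : Type} [Countable ι] {P : ι → X → Prop}
    (h : ∃ᶠ x in residual X, ∃ i, P i x) : ∃ i, ∃ᶠ x in residual X, P i x := by
  by_contra hc
  push Not at hc
  apply h
  filter_upwards [eventually_countable_forall.2 hc] with x hx
  simpa using hx

lemma freq_open [BaireSpace X] {V : Set X} (hV : IsOpen V) (hn : V.Nonempty) :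
    ∃ᶠ x in residual X, x ∈ V :=
  not_isMeagre_of_isOpen hV hn

lemma exists_of_residual [BaireSpace X] {V : Set X} (hV : IsOpen V) (hn : V.Nonempty)
    {P : X → Prop} (h : ∀ᶠ x in residual X, P x) : ∃ x ∈ V, P x :=
  ((freq_open hV hn).and_eventually h).exists

/-- `P` holds on a nonmeagre subset of every nonempty open subset of `O`. -/
def EvNM (P : X → Prop) (O : Set X) : Prop :=
  ∀ V, IsOpen V → V.Nonempty → V ⊆ O → ∃ᶠ x in residual X, x ∈ V ∧ P x

lemma EvNM.mono {P Q : X → Prop} {O O' : Set X} (h : EvNM P O) (hO : O' ⊆ O)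
    (hPQ : ∀ x, P x → Q x) : EvNM Q O' := fun V hV hn hVO =>
  (h V hV hn (hVO.trans hO)).mono fun x hx => ⟨hx.1, hPQ x hx.2⟩

lemma exists_evNM [SecondCountableTopology X] {P : X → Prop} (h : ∃ᶠ x in residual X, P x) :
    ∃ O : Set X, IsOpen O ∧ O.Nonempty ∧ EvNM P O := by
  let 𝓑 : Set (Set X) := {V ∈ countableBasis X | ∀ᶠ x in residual X, ¬(x ∈ V ∧ P x)}
  have hB : 𝓑.Countable := (countable_countableBasis X).mono fun V hV => hV.1
  have hM : IsOpen (⋃₀ 𝓑) := isOpen_sUnion fun V hV => isOpen_of_mem_countableBasis hV.1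
  have h1 : ∀ᶠ x in residual X, ∀ V ∈ 𝓑, ¬(x ∈ V ∧ P x) :=
    (eventually_countable_ball hB).2 fun V hV => hV.2
  have h2 : ¬Dense (⋃₀ 𝓑) := by
    intro hd
    apply h
    filter_upwards [h1, residual_of_dense_open hM hd] with x hx ⟨V, hV, hxV⟩ hP
    exact hx V hV ⟨hxV, hP⟩
  refine ⟨(closure (⋃₀ 𝓑))ᶜ, isClosed_closure.isOpen_compl, ?_, ?_⟩
  · rw [nonempty_compl]
    rwa [dense_iff_closure_eq] at h2
  · intro V hV ⟨x, hx⟩ hVO hc
    obtain ⟨W, hW, hxW, hWV⟩ := (isBasis_countableBasis X).exists_subset_of_mem_open hx hV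
    have : W ∈ 𝓑 := ⟨hW, hc.mono fun y hy hy' => hy ⟨hWV hy'.1, hy'.2⟩⟩
    exact hVO hx (subset_closure ⟨W, this, hxW⟩)

lemma EvNM.residual {P : X → Prop} {O : Set X} (h : EvNM P O) (hO : IsOpen O)
    (hP : BaireMeasurableSet {x | P x}) : ∀ᶠ x in residual X, x ∈ O → P x := by
  obtain ⟨U, hU, hPU⟩ := hP.residualEq_isOpen
  have hPU' : ∀ᶠ x in _root_.residual X, P x ↔ x ∈ U := eventuallyEq_set.1 hPU
  have h1 : O ⊆ closure U := by
    intro x hx
    by_contra hc
    apply h (O ∩ (closure U)ᶜ) (hO.inter isClosed_closure.isOpen_compl) ⟨x, hx, hc⟩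
      inter_subset_left
    filter_upwards [hPU'] with y hy ⟨⟨_, hy1⟩, hy2⟩
    exact hy1 (subset_closure (hy.1 hy2))
  have h2 : ∀ᶠ x in _root_.residual X, x ∈ closure U ↔ x ∈ U :=
    eventuallyEq_set.1 (closure_residualEq hU.isLocallyClosed)
  filter_upwards [hPU', h2] with x hx1 hx2 hx
  exact hx1.2 (hx2.1 (h1 hx))

lemma exists_open_of_freq {P : X → Prop} (h : ∃ᶠ x in residual X, P x)
    (hP : BaireMeasurableSet {x | P x}) :
    ∃ U : Set X, IsOpen U ∧ U.Nonempty ∧ ∀ᶠ x in residual X, x ∈ U → P x := by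
  obtain ⟨U, hU, hPU⟩ := hP.residualEq_isOpen
  have hPU' : ∀ᶠ x in residual X, P x ↔ x ∈ U := eventuallyEq_set.1 hPU
  refine ⟨U, hU, ?_, hPU'.mono fun x hx => hx.2⟩
  obtain ⟨x, hx1, hx2⟩ := (h.and_eventually hPU').exists
  exact ⟨x, hx2.1 hx1⟩

/-- A nonmeagre set is dense in some nonempty open set. -/
lemma exists_open_subset_closure {P : X → Prop} (h : ∃ᶠ x in residual X, P x) :
    ∃ U : Set X, IsOpen U ∧ U.Nonempty ∧ U ⊆ closure {x | P x} := by
  by_cases hnd : IsNowhereDense {x | P x}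
  · exact absurd hnd.isMeagre h
  · exact ⟨_, isOpen_interior, nonempty_iff_ne_empty.2 hnd, interior_subset⟩

/-- Pushing a generic statement forward along an embedding. -/
lemma residual_push {e : X → Y} (he : IsInducing e) {P : X → Prop}
    (h : ∀ᶠ x in residual X, P x) : ∀ᶠ y in residual Y, ∀ x, e x = y → P x := by
  have h1 : IsMeagre {x | ¬P x} := by
    unfold IsMeagre
    filter_upwards [h] with x hx
    simpa using hx
  have h2 := he.isMeagre_image h1
  unfold IsMeagre at h2
  filter_upwards [h2] with y hy x hx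
  by_contra hc
  exact hy ⟨x, hc, hx⟩

/-- Category preserving maps. -/
def Gen (f : X → Y) : Prop := Tendsto f (residual X) (residual Y)

lemma Gen.ev {f : X → Y} (hf : Gen f) {P : Y → Prop} (h : ∀ᶠ y in residual Y, P y) :
    ∀ᶠ x in residual X, P (f x) := Tendsto.eventually hf h

lemma Gen.comp {Z : Type} [TopologicalSpace Z] {f : X → Y} {g : Y → Z} (hg : Gen g) (hf : Gen f) :
    Gen (fun x => g (f x)) := Tendsto.comp hg hf

lemma gen_fst : Gen (Prod.fst : X × Y → X) :=
  tendsto_residual_of_isOpenMap continuous_fst isOpenMap_fst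

lemma gen_snd : Gen (Prod.snd : X × Y → Y) :=
  tendsto_residual_of_isOpenMap continuous_snd isOpenMap_snd

lemma Gen.iterate {f : X → X} (hf : Gen f) (n : ℕ) : Gen f^[n] := by
  induction n with
  | zero => exact tendsto_id
  | succ n ih => rw [Function.iterate_succ]; exact ih.comp hf

lemma Gen.ite {f g : X → Y} (hf : Gen f) (hg : Gen g) (c : X → Bool) :
    Gen (fun x => if c x = true then f x else g x) := by
  intro s hs
  change ∀ᶠ x in residual X, (if c x = true then f x else g x) ∈ s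
  filter_upwards [hf.ev hs, hg.ev hs] with x h1 h2
  split_ifs
  · exact h1
  · exact h2

lemma gen_of_add [AddCommGroup X] [IsTopologicalAddGroup X] [CompactSpace X]
    [AddCommGroup Y] [ContinuousAdd Y] [BaireSpace Y] [T2Space Y] {f : X → Y}
    (hadd : ∀ x y, f (x + y) = f x + f y) (hc : Continuous f) (hs : Function.Surjective f) :
    Gen f :=
  tendsto_residual_of_isOpenMap hc
    ((AddMonoidHom.mk' f hadd).isOpenMap_of_sigmaCompact hs hc)

end General

section Cyl

open PiNat

lemma exists_cylinder_subset {E : Type} [TopologicalSpace E] [DiscreteTopology E]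
    {U : Set (ℕ → E)} (hU : IsOpen U) {x : ℕ → E} (hx : x ∈ U) :
    ∃ k, cylinder x k ⊆ U := by
  obtain ⟨_, ⟨y, n, rfl⟩, h1, h2⟩ :=
    (isTopologicalBasis_cylinders fun _ : ℕ => E).exists_subset_of_mem_open hx hU
  exact ⟨n, by rwa [mem_cylinder_iff_eq.1 h1]⟩

lemma exists_cylinder_prod_subset {E : Type} [TopologicalSpace E] [DiscreteTopology E]
    {U : Set ((ℕ → E) × (ℕ → E))} (hU : IsOpen U) {x y : ℕ → E} (hx : (x, y) ∈ U) :
    ∃ k, cylinder x k ×ˢ cylinder y k ⊆ U := by
  obtain ⟨u, v, hu, hv, hxu, hyv, h⟩ := isOpen_prod_iff.1 hU x y hx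
  obtain ⟨k1, hk1⟩ := exists_cylinder_subset hu hxu
  obtain ⟨k2, hk2⟩ := exists_cylinder_subset hv hyv
  refine ⟨k1 + k2, Subset.trans (prod_mono ?_ ?_) h⟩
  · exact (cylinder_anti x (by omega)).trans hk1
  · exact (cylinder_anti y (by omega)).trans hk2

end Cyl

end Crest.Agent.R292
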