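import Mathlib

/-!
String functionals: a uniform presentation of Turing reductions between elements of Cantor space.
-/

set_option autoImplicit false

namespace Crest.Agent.R292

/-- Cantor space. -/
abbrev G : Type := ℕ → Bool

/-- `l` is an initial segment of `A`. -/
def Pre (l : List Bool) (A : G) : Prop := ∀ (i : ℕ) (v : Bool), l[i]? = some v → A i = v

/-- The string map `φ` computes `A` from `B`. -/
def Rz (φ : List Bool → List Bool) (B A : G) : Prop :=
  (∀ l, Pre l B → Pre (φ l) A) ∧
    ∀ n : ℕ, ∃ k : ℕ, ∀ l, Pre l B → k ≤ l.length → n ≤ (φ l).length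

/-- Option-valued version of `Rz`. -/
def ORz (f : List Bool → ℕ → Option Bool) (B A : G) : Prop :=
  (∀ l, Pre l B → ∀ n v, f l n = some v → A n = v) ∧
    ∀ n : ℕ, ∃ k : ℕ, ∀ l, Pre l B → k ≤ l.length → (f l n).isSome

/-- `A` is computable from `B`. -/
def Red (A B : G) : Prop := ∃ φ : List Bool → List Bool, Primrec φ ∧ Rz φ B A

/-- Uniform reducibility over a set of indices. -/
def URed {ι : Type} (S : Set ι) (A B : ι → G) : Prop :=
  ∃ φ : List Bool → List Bool, Primrec φ ∧ ∀ i ∈ S, Rz φ (B i) (A i)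

/-- The initial segment of length `k`. -/
def pre (A : G) (k : ℕ) : List Bool := (List.range k).map A

@[simp] lemma length_pre (A : G) (k : ℕ) : (pre A k).length = k := by simp [pre]

lemma getElem?_pre (A : G) (k i : ℕ) : (pre A k)[i]? = if i < k then some (A i) else none := by
  unfold pre
  split_ifs with h
  · simp [h]
  · simp; omega

lemma pre_Pre (A : G) (k : ℕ) : Pre (pre A k) A := by
  intro i v h
  rw [getElem?_pre] at h
  split_ifs at h
  simpa using h

lemma Pre.get {l : List Bool} {A : G} (h : Pre l A) {i : ℕ} (hi : i < l.length) :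
    l[i]? = some (A i) := by
  have h1 : l[i]? = some l[i] := List.getElem?_eq_getElem hi
  rw [h1, h i _ h1]

lemma Pre.getD {l : List Bool} {A : G} (h : Pre l A) {i : ℕ} (hi : i < l.length) :
    l.getD i false = A i := by
  rw [List.getD_eq_getElem?_getD, h.get hi]; rfl

lemma Pre.nil (A : G) : Pre [] A := by
  intro i v h; simp at h

lemma Pre.of_eq {l : List Bool} {A B : G} (h : Pre l A) (hAB : ∀ i < l.length, B i = A i) :
    Pre l B := by
  intro i v hv
  have hi : i < l.length := by
    by_contra hc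
    rw [List.getElem?_eq_none (by omega)] at hv
    cases hv
  rw [hAB i hi]; exact h i v hv

/-- Turn an option-valued approximation into a string map. -/
def collect (f : List Bool → ℕ → Option Bool) (l : List Bool) : List Bool :=
  (List.range ((List.range l.length).findIdx fun n => !(f l n).isSome)).map
    fun n => (f l n).getD false

lemma primrec_collect {f : List Bool → ℕ → Option Bool} (hf : Primrec₂ f) :
    Primrec (collect f) := by
  unfold collect
  refine Primrec.list_map (Primrec.list_range.comp ?_) ?_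
  · refine Primrec.list_findIdx (Primrec.list_range.comp Primrec.list_length) ?_
    exact (Primrec.not.comp (Primrec.option_isSome.comp hf)).to₂
  · exact (Primrec.option_getD.comp hf (Primrec.const false)).to₂

lemma ORz.rz {f : List Bool → ℕ → Option Bool} {B A : G} (h : ORz f B A) :
    Rz (collect f) B A := by
  obtain ⟨h1, h2⟩ := h
  constructor
  · intro l hl i v hv
    unfold collect at hv
    rw [List.getElem?_map] at hv
    by_cases hi : i < (List.range l.length).findIdx fun n => !(f l n).isSome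
    · rw [List.getElem?_range hi] at hv
      have h3 := List.not_of_lt_findIdx hi
      simp only [List.getElem_range, Bool.not_eq_eq_eq_not, Bool.not_false] at h3
      obtain ⟨w, hw⟩ := Option.isSome_iff_exists.1 h3
      simp only [Option.map_some, hw, Option.getD_some, Option.some.injEq] at hv
      rw [← hv]; exact h1 l hl i w hw
    · rw [List.getElem?_eq_none (by rw [List.length_range]; omega)] at hv
      cases hv
  · intro n
    choose K hK using h2
    refine ⟨n + ∑ j ∈ Finset.range n, K j, fun l hl hk => ?_⟩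
    unfold collect
    simp only [List.length_map, List.length_range]
    by_contra hc
    push Not at hc
    set j := (List.range l.length).findIdx fun n => !(f l n).isSome with hj
    have hjl : j < (List.range l.length).length := by simp; omega
    have h3 := List.findIdx_getElem (w := hjl)
    simp only [List.getElem_range, ← hj] at h3
    have h4 : K j ≤ ∑ j ∈ Finset.range n, K j :=
      Finset.single_le_sum (f := K) (fun _ _ => Nat.zero_le _) (Finset.mem_range.2 hc)
    have h5 := hK j l hl (by omega)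
    simp [h5] at h3

lemma Rz.id (A : G) : Rz id A A :=
  ⟨fun _ h => h, fun n => ⟨n, fun _ _ h => h⟩⟩

lemma Rz.comp {φ ψ : List Bool → List Bool} {A B C : G} (h1 : Rz φ C B) (h2 : Rz ψ B A) :
    Rz (ψ ∘ φ) C A := by
  refine ⟨fun l hl => h2.1 _ (h1.1 l hl), fun n => ?_⟩
  obtain ⟨k, hk⟩ := h2.2 n
  obtain ⟨k', hk'⟩ := h1.2 k
  exact ⟨k', fun l hl h => hk _ (h1.1 l hl) (hk' l hl h)⟩

lemma Rz.unique {φ : List Bool → List Bool} {A A' B : G} (h1 : Rz φ B A) (h2 : Rz φ B A') :
    A = A' := by
  funext n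
  obtain ⟨k, hk⟩ := h1.2 (n + 1)
  have h3 := hk _ (pre_Pre B k) (by simp)
  have h4 := (h1.1 _ (pre_Pre B k)).get (i := n) (by omega)
  exact ((h2.1 _ (pre_Pre B k)) n _ h4).symm

/-- An `Rz` gives the bits eventually. -/
lemma Rz.ev {φ : List Bool → List Bool} {A B : G} (h : Rz φ B A) (n : ℕ) :
    ∃ k : ℕ, ∀ l, Pre l B → k ≤ l.length → (φ l)[n]? = some (A n) := by
  obtain ⟨k, hk⟩ := h.2 (n + 1)
  exact ⟨k, fun l hl hkl => (h.1 l hl).get (hk l hl hkl)⟩

/-- The join of two elements of Cantor space. -/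
def jn (A B : G) : G := fun n => if n % 2 = 0 then A (n / 2) else B (n / 2)

@[simp] lemma jn_even (A B : G) (n : ℕ) : jn A B (2 * n) = A n := by
  simp [jn]

@[simp] lemma jn_odd (A B : G) (n : ℕ) : jn A B (2 * n + 1) = B n := by
  have h1 : (2 * n + 1) % 2 ≠ 0 := by omega
  have h2 : (2 * n + 1) / 2 = n := by omega
  simp only [jn, h2, if_neg h1]

namespace URed

variable {ι : Type} {S : Set ι} {A B C A' : ι → G}

lemma red (h : URed S A B) {i : ι} (hi : i ∈ S) : Red (A i) (B i) := by
  obtain ⟨φ, h1, h2⟩ := h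
  exact ⟨φ, h1, h2 i hi⟩

lemma mono {S' : Set ι} (h : URed S A B) (hS : S' ⊆ S) : URed S' A B := by
  obtain ⟨φ, h1, h2⟩ := h
  exact ⟨φ, h1, fun i hi => h2 i (hS hi)⟩

lemma congr_left (h : URed S A B) (hA : ∀ i ∈ S, A i = A' i) : URed S A' B := by
  obtain ⟨φ, h1, h2⟩ := h
  exact ⟨φ, h1, fun i hi => hA i hi ▸ h2 i hi⟩

lemma index {κ : Type} {T : Set κ} (h : URed S A B) (s : κ → ι) (hs : ∀ j ∈ T, s j ∈ S) :
    URed T (fun j => A (s j)) (fun j => B (s j)) := by
  obtain ⟨φ, h1, h2⟩ := h
  exact ⟨φ, h1, fun j hj => h2 _ (hs j hj)⟩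

lemma refl (S : Set ι) (A : ι → G) : URed S A A :=
  ⟨id, Primrec.id, fun _ _ => Rz.id _⟩

lemma trans (h1 : URed S A B) (h2 : URed S B C) : URed S A C := by
  obtain ⟨φ, hφ, h1⟩ := h1
  obtain ⟨ψ, hψ, h2⟩ := h2
  exact ⟨φ ∘ ψ, hφ.comp hψ, fun i hi => (h2 i hi).comp (h1 i hi)⟩

lemma of_opt {f : List Bool → ℕ → Option Bool} (hf : Primrec₂ f)
    (h : ∀ i ∈ S, ORz f (B i) (A i)) : URed S A B :=
  ⟨collect f, primrec_collect hf, fun i hi => (h i hi).rz⟩

lemma of_tt {u : ℕ → ℕ} {F : List Bool → ℕ → Bool} (hu : Primrec u) (hF : Primrec₂ F)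
    (h : ∀ i ∈ S, ∀ n l, Pre l (B i) → u n ≤ l.length → F l n = A i n) : URed S A B := by
  refine of_opt (f := fun l n => if u n ≤ l.length then some (F l n) else none) ?_ ?_
  · refine Primrec.to₂ (f := fun p : List Bool × ℕ =>
      if u p.2 ≤ p.1.length then some (F p.1 p.2) else none) ?_
    refine Primrec.ite (Primrec.nat_le.comp (hu.comp Primrec.snd)
      (Primrec.list_length.comp Primrec.fst)) ?_ (Primrec.const none)
    exact Primrec.option_some.comp hF
  · intro i hi
    refine ⟨fun l hl n v hv => ?_, fun n => ⟨u n, fun l _ hk => by simp [hk]⟩⟩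
    dsimp only at hv
    split_ifs at hv with hu
    rw [← h i hi n l hl hu]
    simpa using hv

lemma reindex {r : ℕ → ℕ} (hr : Primrec r) (S : Set ι) (B : ι → G) :
    URed S (fun i n => B i (r n)) B := by
  refine of_tt (u := fun n => r n + 1) (F := fun l n => l.getD (r n) false)
    (Primrec.succ.comp hr) ?_ ?_
  · exact ((Primrec.list_getD false).comp Primrec.fst (hr.comp Primrec.snd)).to₂
  · intro i _ n l hl hn
    exact hl.getD (by omega)

lemma pair (h1 : URed S A B) (h2 : URed S A' B) : URed S (fun i => jn (A i) (A' i)) B := by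
  obtain ⟨φ, hφ, h1⟩ := h1
  obtain ⟨ψ, hψ, h2⟩ := h2
  refine of_opt (f := fun l n => if n % 2 = 0 then (φ l)[n / 2]? else (ψ l)[n / 2]?) ?_ ?_
  · refine Primrec.to₂ (f := fun p : List Bool × ℕ =>
      if p.2 % 2 = 0 then (φ p.1)[p.2 / 2]? else (ψ p.1)[p.2 / 2]?) ?_
    refine Primrec.ite (Primrec.eq.comp (Primrec.nat_mod.comp Primrec.snd (Primrec.const 2))
      (Primrec.const 0)) ?_ ?_
    · exact Primrec.list_getElem?.comp (hφ.comp Primrec.fst)
        (Primrec.nat_div.comp Primrec.snd (Primrec.const 2))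
    · exact Primrec.list_getElem?.comp (hψ.comp Primrec.fst)
        (Primrec.nat_div.comp Primrec.snd (Primrec.const 2))
  · intro i hi
    refine ⟨fun l hl n v hv => ?_, fun n => ?_⟩
    · dsimp only at hv
      unfold jn
      split_ifs at hv ⊢ with hn
      · exact (h1 i hi).1 l hl _ _ hv
      · exact (h2 i hi).1 l hl _ _ hv
    · obtain ⟨k1, hk1⟩ := (h1 i hi).ev (n / 2)
      obtain ⟨k2, hk2⟩ := (h2 i hi).ev (n / 2)
      refine ⟨k1 + k2, fun l hl hk => ?_⟩
      dsimp only
      split_ifs
      · rw [hk1 l hl (by omega)]; rfl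
      · rw [hk2 l hl (by omega)]; rfl

lemma left (S : Set ι) (A A' : ι → G) : URed S A (fun i => jn (A i) (A' i)) :=
  (reindex Primrec.nat_double S fun i => jn (A i) (A' i)).congr_left
    fun i _ => by funext n; simp

lemma right (S : Set ι) (A A' : ι → G) : URed S A' (fun i => jn (A i) (A' i)) :=
  (reindex Primrec.nat_double_succ S fun i => jn (A i) (A' i)).congr_left
    fun i _ => by funext n; simp

lemma op2 (op : Bool → Bool → Bool) (h1 : URed S A B) (h2 : URed S A' B) :
    URed S (fun i n => op (A i n) (A' i n)) B := by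
  refine trans ?_ (pair h1 h2)
  refine of_tt (u := fun n => 2 * n + 2)
    (F := fun l n => op (l.getD (2 * n) false) (l.getD (2 * n + 1) false)) ?_ ?_ ?_
  · exact Primrec.succ.comp Primrec.nat_double_succ
  · exact ((Primrec.dom_bool₂ op).comp
      ((Primrec.list_getD false).comp Primrec.fst (Primrec.nat_double.comp Primrec.snd))
      ((Primrec.list_getD false).comp Primrec.fst
        (Primrec.nat_double_succ.comp Primrec.snd))).to₂
  · intro i _ n l hl hn
    rw [hl.getD (by omega), hl.getD (by omega)]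
    simp

lemma const (S : Set ι) (c : Bool) (B : ι → G) : URed S (fun _ _ => c) B :=
  (op2 (fun _ _ => c) (refl S B) (refl S B))

lemma bit (h : URed S A B) (m : ℕ) : URed S (fun i _ => A i m) B :=
  trans (reindex (Primrec.const m) S A) h

lemma cases {β : ι → Bool} (hβ : URed S (fun i _ => β i) B)
    (h0 : URed {i ∈ S | β i = false} A B) (h1 : URed {i ∈ S | β i = true} A B) :
    URed S A B := by
  obtain ⟨χ, hχ, hβ⟩ := hβ
  obtain ⟨φ, hφ, h0⟩ := h0
  obtain ⟨ψ, hψ, h1⟩ := h1
  refine of_opt (f := fun l n => ((χ l)[0]?).bind fun b => bif b then (ψ l)[n]? else (φ l)[n]?)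
    ?_ ?_
  · refine Primrec.to₂ (f := fun p : List Bool × ℕ =>
      ((χ p.1)[0]?).bind fun b => bif b then (ψ p.1)[p.2]? else (φ p.1)[p.2]?) ?_
    refine Primrec.option_bind
      (Primrec.list_getElem?.comp (hχ.comp Primrec.fst) (Primrec.const 0)) ?_
    refine Primrec.to₂ (f := fun q : (List Bool × ℕ) × Bool =>
      bif q.2 then (ψ q.1.1)[q.1.2]? else (φ q.1.1)[q.1.2]?) ?_
    exact Primrec.cond Primrec.snd
      (Primrec.list_getElem?.comp (hψ.comp (Primrec.fst.comp Primrec.fst))
        (Primrec.snd.comp Primrec.fst))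
      (Primrec.list_getElem?.comp (hφ.comp (Primrec.fst.comp Primrec.fst))
        (Primrec.snd.comp Primrec.fst))
  · intro i hi
    refine ⟨fun l hl n v hv => ?_, fun n => ?_⟩
    · dsimp only at hv
      obtain ⟨b, hb, hv⟩ := Option.bind_eq_some_iff.1 hv
      have hb' : β i = b := (hβ i hi).1 l hl 0 b hb
      cases b
      · exact (h0 i ⟨hi, hb'⟩).1 l hl _ _ hv
      · exact (h1 i ⟨hi, hb'⟩).1 l hl _ _ hv
    · obtain ⟨k0, hk0⟩ := (hβ i hi).ev 0
      cases hb : β i
      · obtain ⟨k1, hk1⟩ := (h0 i ⟨hi, hb⟩).ev n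
        refine ⟨k0 + k1, fun l hl hk => ?_⟩
        dsimp only
        rw [hk0 l hl (by omega)]
        simp [hb, hk1 l hl (by omega)]
      · obtain ⟨k1, hk1⟩ := (h1 i ⟨hi, hb⟩).ev n
        refine ⟨k0 + k1, fun l hl hk => ?_⟩
        dsimp only
        rw [hk0 l hl (by omega)]
        simp [hb, hk1 l hl (by omega)]

/-- Iterating a uniform step. -/
lemma iter {s : ι → ι} (hs : ∀ i ∈ S, s i ∈ S) {β : ι → Bool}
    (hstep : URed S (fun i => B (s i)) B) (hβ : URed S (fun i _ => β i) B) :
    URed S (fun i n => β (s^[n] i)) B := by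
  obtain ⟨χ, hχ, hβ⟩ := hβ
  obtain ⟨φ, hφ, hstep⟩ := hstep
  have hmem : ∀ n, ∀ i ∈ S, s^[n] i ∈ S := by
    intro n
    induction n with
    | zero => intro i hi; simpa using hi
    | succ n ih => intro i hi; rw [Function.iterate_succ_apply']; exact hs _ (ih i hi)
  have hit : ∀ n, ∀ i ∈ S, Rz (φ^[n]) (B i) (B (s^[n] i)) := by
    intro n
    induction n with
    | zero => intro i _; simpa using Rz.id _
    | succ n ih =>
      intro i hi
      rw [Function.iterate_succ_apply', Function.iterate_succ']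
      exact (ih i hi).comp (hstep _ (hmem n i hi))
  refine of_opt (f := fun l n => (χ (φ^[n] l))[0]?) ?_ ?_
  · refine Primrec.to₂ (f := fun p : List Bool × ℕ => (χ (φ^[p.2] p.1))[0]?) ?_
    refine Primrec.list_getElem?.comp (hχ.comp ?_) (Primrec.const 0)
    exact Primrec.nat_iterate (h := fun _ l => φ l) Primrec.snd Primrec.fst
      (hφ.comp Primrec.snd).to₂
  · intro i hi
    refine ⟨fun l hl n v hv => ?_, fun n => ?_⟩
    · exact ((hit n i hi).comp (hβ _ (hmem n i hi))).1 l hl 0 v hv
    · obtain ⟨k, hk⟩ := ((hit n i hi).comp (hβ _ (hmem n i hi))).ev 0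
      refine ⟨k, fun l hl hkl => ?_⟩
      have := hk l hl hkl
      simp only [Function.comp] at this
      dsimp only
      rw [this]; rfl

/-- A finite disjunction of uniformly computable bits. -/
lemma exists_lt {β : ℕ → ι → Bool} (N : ℕ) (h : ∀ j < N, URed S (fun i _ => β j i) B) :
    URed S (fun i _ => decide (∃ j < N, β j i = true)) B := by
  induction N with
  | zero => simpa using const S false B
  | succ N ih =>
    refine (op2 or (ih fun j hj => h j (by omega)) (h N (by omega))).congr_left ?_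
    intro i _
    funext n
    rw [Bool.eq_iff_iff]
    simp only [Bool.or_eq_true, decide_eq_true_eq]
    constructor
    · rintro (⟨j, hj, h⟩ | h)
      · exact ⟨j, by omega, h⟩
      · exact ⟨N, by omega, h⟩
    · rintro ⟨j, hj, h'⟩
      rcases Nat.lt_succ_iff_lt_or_eq.1 hj with hj | hj
      · exact Or.inl ⟨j, hj, h'⟩
      · exact Or.inr (hj ▸ h')

end URed

namespace Red

variable {A B C A' : G}

lemma ured {ι : Type} (h : Red A B) (S : Set ι) : URed S (fun _ => A) (fun _ => B) := by
  obtain ⟨φ, h1, h2⟩ := h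
  exact ⟨φ, h1, fun _ _ => h2⟩

lemma refl (A : G) : Red A A := ⟨id, Primrec.id, Rz.id _⟩

lemma trans (h1 : Red A B) (h2 : Red B C) : Red A C :=
  ((h1.ured (Set.univ : Set Unit)).trans (h2.ured _)).red (i := ()) trivial

lemma pair (h1 : Red A B) (h2 : Red A' B) : Red (jn A A') B :=
  ((h1.ured (Set.univ : Set Unit)).pair (h2.ured _)).red (i := ()) trivial

lemma left (A B : G) : Red A (jn A B) :=
  (URed.left (Set.univ : Set Unit) (fun _ => A) (fun _ => B)).red (i := ()) trivial

lemma right (A B : G) : Red B (jn A B) :=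
  (URed.right (Set.univ : Set Unit) (fun _ => A) (fun _ => B)).red (i := ()) trivial

lemma op2 (op : Bool → Bool → Bool) (h1 : Red A B) (h2 : Red A' B) :
    Red (fun n => op (A n) (A' n)) B :=
  (URed.op2 op (h1.ured (Set.univ : Set Unit)) (h2.ured _)).red (i := ()) trivial

lemma add (h1 : Red A B) (h2 : Red A' B) : Red (A + A') B :=
  op2 xor h1 h2

lemma reindex {r : ℕ → ℕ} (hr : Primrec r) (B : G) : Red (fun n => B (r n)) B :=
  (URed.reindex hr (Set.univ : Set Unit) (fun _ => B)).red (i := ()) trivial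

lemma of_tt {u : ℕ → ℕ} {F : List Bool → ℕ → Bool} (hu : Primrec u) (hF : Primrec₂ F)
    (h : ∀ n l, Pre l B → u n ≤ l.length → F l n = A n) : Red A B :=
  (URed.of_tt (S := (Set.univ : Set Unit)) (A := fun _ => A) (B := fun _ => B) hu hF
    fun _ _ => h).red (i := ()) trivial

lemma of_opt {f : List Bool → ℕ → Option Bool} (hf : Primrec₂ f) (h : ORz f B A) : Red A B :=
  ⟨collect f, primrec_collect hf, h.rz⟩

lemma jn_mono {A₁ A₂ B₁ B₂ : G} (h1 : Red A₁ B₁) (h2 : Red A₂ B₂) :
    Red (jn A₁ A₂) (jn B₁ B₂) :=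
  pair (h1.trans (left _ _)) (h2.trans (right _ _))

end Red

end Crest.Agent.R292
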