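import Crest.Agent.R292.Basic

/-!
`Red` agrees with Mathlib's Turing reducibility of characteristic functions.
-/

set_option autoImplicit false

namespace Crest.Agent.R292

/-- The oracle attached to a point of Cantor space. -/
def orc (A : G) : ℕ →. ℕ := fun n => Part.some (A n).toNat

/-- `φ` approximates the partial function `f` from initial segments of `B`. -/
def Appr (B : G) (φ : List Bool → ℕ → Option ℕ) (f : ℕ →. ℕ) : Prop :=
  (∀ l, Pre l B → ∀ n v, φ l n = some v → v ∈ f n) ∧
    ∀ n v, v ∈ f n → ∃ k : ℕ, ∀ l, Pre l B → k ≤ l.length → φ l n = some v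

lemma appr_tot (B : G) {g : ℕ → ℕ} (hg : Primrec g) :
    ∃ φ : List Bool → ℕ → Option ℕ, Primrec₂ φ ∧ Appr B φ (fun n => Part.some (g n)) := by
  refine ⟨fun _ n => some (g n), (Primrec.option_some.comp (hg.comp Primrec.snd)).to₂, ?_, ?_⟩
  · intro l _ n v hv
    simp only [Option.some.injEq] at hv
    simp [hv]
  · intro n v hv
    refine ⟨0, fun l _ _ => ?_⟩
    simp only [Part.mem_some_iff] at hv
    simp [hv]

lemma exists_appr {B : G} {f : ℕ →. ℕ} (hf : Nat.RecursiveIn {orc B} f) :
    ∃ φ : List Bool → ℕ → Option ℕ, Primrec₂ φ ∧ Appr B φ f := by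
  induction hf with
  | zero => exact appr_tot B (g := fun _ => 0) (Primrec.const 0)
  | succ => exact appr_tot B Primrec.succ
  | left => exact appr_tot B (Primrec.fst.comp Primrec.unpair)
  | right => exact appr_tot B (Primrec.snd.comp Primrec.unpair)
  | oracle g hg =>
    rw [Set.mem_singleton_iff] at hg
    subst hg
    refine ⟨fun l n => (l[n]?).map Bool.toNat, ?_, ?_, ?_⟩
    · exact ((Primrec.option_map₁ (Primrec.dom_bool Bool.toNat)).comp Primrec.list_getElem?).to₂
    · intro l hl n v hv
      obtain ⟨b, hb, rfl⟩ := Option.map_eq_some_iff.1 hv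
      simp [orc, hl n b hb]
    · intro n v hv
      refine ⟨n + 1, fun l hl hk => ?_⟩
      simp only [orc, Part.mem_some_iff] at hv
      dsimp only
      rw [hl.get (by omega), hv]; rfl
  | @pair f h _ _ ihf ihh =>
    obtain ⟨φ, hφ, h1, h2⟩ := ihf
    obtain ⟨ψ, hψ, h3, h4⟩ := ihh
    refine ⟨fun l n => (φ l n).bind fun a => (ψ l n).map fun b => Nat.pair a b, ?_, ?_, ?_⟩
    · refine Primrec.to₂ (f := fun p : List Bool × ℕ =>
        (φ p.1 p.2).bind fun a => (ψ p.1 p.2).map fun b => Nat.pair a b) ?_
      refine Primrec.option_bind hφ ?_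
      refine Primrec.to₂ (f := fun q : (List Bool × ℕ) × ℕ =>
        (ψ q.1.1 q.1.2).map fun b => Nat.pair q.2 b) ?_
      refine Primrec.option_map (hψ.comp (Primrec.fst.comp Primrec.fst)
        (Primrec.snd.comp Primrec.fst)) ?_
      exact (Primrec₂.natPair.comp (Primrec.snd.comp Primrec.fst) Primrec.snd).to₂
    · intro l hl n v hv
      obtain ⟨a, ha, hv⟩ := Option.bind_eq_some_iff.1 hv
      obtain ⟨b, hb, rfl⟩ := Option.map_eq_some_iff.1 hv
      simp only [Seq.seq, Part.map_eq_map, Part.mem_bind_iff, Part.mem_map_iff]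
      exact ⟨_, ⟨a, h1 l hl n a ha, rfl⟩, b, h3 l hl n b hb, rfl⟩
    · intro n v hv
      simp only [Seq.seq, Part.map_eq_map, Part.mem_bind_iff,
        Part.mem_map_iff] at hv
      obtain ⟨_, ⟨a, ha, rfl⟩, b, hb, rfl⟩ := hv
      obtain ⟨k1, hk1⟩ := h2 n a ha
      obtain ⟨k2, hk2⟩ := h4 n b hb
      refine ⟨k1 + k2, fun l hl hk => ?_⟩
      simp [hk1 l hl (by omega), hk2 l hl (by omega)]
  | @comp f h _ _ ihf ihh =>
    obtain ⟨φ, hφ, h1, h2⟩ := ihf
    obtain ⟨ψ, hψ, h3, h4⟩ := ihh
    refine ⟨fun l n => (ψ l n).bind fun a => φ l a, ?_, ?_, ?_⟩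
    · refine Primrec.to₂ (f := fun p : List Bool × ℕ => (ψ p.1 p.2).bind fun a => φ p.1 a) ?_
      refine Primrec.option_bind hψ ?_
      exact (hφ.comp (Primrec.fst.comp Primrec.fst) Primrec.snd).to₂
    · intro l hl n v hv
      obtain ⟨a, ha, hv⟩ := Option.bind_eq_some_iff.1 hv
      exact Part.mem_bind_iff.2 ⟨a, h3 l hl n a ha, h1 l hl a v hv⟩
    · intro n v hv
      obtain ⟨a, ha, hv⟩ := Part.mem_bind_iff.1 hv
      obtain ⟨k1, hk1⟩ := h4 n a ha
      obtain ⟨k2, hk2⟩ := h2 a v hv
      refine ⟨k1 + k2, fun l hl hk => ?_⟩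
      simp [hk1 l hl (by omega), hk2 l hl (by omega)]
  | @prec f h _ _ ihf ihh =>
    obtain ⟨φ, hφ, h1, h2⟩ := ihf
    obtain ⟨ψ, hψ, h3, h4⟩ := ihh
    refine ⟨fun l p => Nat.rec (motive := fun _ => Option ℕ) (φ l p.unpair.1)
      (fun y IH => IH.bind fun i => ψ l (Nat.pair p.unpair.1 (Nat.pair y i))) p.unpair.2,
      ?_, ?_, ?_⟩
    · refine Primrec.to₂ (f := fun q : List Bool × ℕ =>
        Nat.rec (motive := fun _ => Option ℕ) (φ q.1 q.2.unpair.1)
        (fun y IH => IH.bind fun i => ψ q.1 (Nat.pair q.2.unpair.1 (Nat.pair y i)))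
          q.2.unpair.2) ?_
      refine Primrec.nat_rec' (h := fun (q : List Bool × ℕ) (r : ℕ × Option ℕ) =>
        r.2.bind fun i => ψ q.1 (Nat.pair q.2.unpair.1 (Nat.pair r.1 i)))
        (Primrec.snd.comp (Primrec.unpair.comp Primrec.snd))
        (hφ.comp Primrec.fst (Primrec.fst.comp (Primrec.unpair.comp Primrec.snd))) ?_
      refine Primrec.to₂ (f := fun z : (List Bool × ℕ) × (ℕ × Option ℕ) =>
        z.2.2.bind fun i => ψ z.1.1 (Nat.pair z.1.2.unpair.1 (Nat.pair z.2.1 i))) ?_
      refine Primrec.option_bind (Primrec.snd.comp Primrec.snd) ?_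
      refine Primrec.to₂ (f := fun w : ((List Bool × ℕ) × (ℕ × Option ℕ)) × ℕ =>
        ψ w.1.1.1 (Nat.pair w.1.1.2.unpair.1 (Nat.pair w.1.2.1 w.2))) ?_
      refine hψ.comp (Primrec.fst.comp (Primrec.fst.comp Primrec.fst)) ?_
      refine Primrec₂.natPair.comp (Primrec.fst.comp (Primrec.unpair.comp
        (Primrec.snd.comp (Primrec.fst.comp Primrec.fst)))) ?_
      exact Primrec₂.natPair.comp (Primrec.fst.comp (Primrec.snd.comp Primrec.fst)) Primrec.snd
    · intro l hl p
      dsimp only
      generalize p.unpair.1 = a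
      generalize p.unpair.2 = n
      induction n with
      | zero => intro v hv; exact h1 l hl a v hv
      | succ n ih =>
        intro v hv
        obtain ⟨i, hi, hv⟩ := Option.bind_eq_some_iff.1 hv
        simp only [Part.bind_eq_bind, Part.mem_bind_iff]
        exact ⟨i, ih i hi, h3 l hl _ v hv⟩
    · intro p
      dsimp only
      generalize p.unpair.1 = a
      generalize p.unpair.2 = n
      induction n with
      | zero => intro v hv; exact h2 a v hv
      | succ n ih =>
        intro v hv
        simp only [Part.bind_eq_bind, Part.mem_bind_iff] at hv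
        obtain ⟨i, hi, hv⟩ := hv
        obtain ⟨k1, hk1⟩ := ih i hi
        obtain ⟨k2, hk2⟩ := h4 _ v hv
        refine ⟨k1 + k2, fun l hl hk => ?_⟩
        have e1 := hk1 l hl (by omega)
        have e2 := hk2 l hl (by omega)
        simp only [e1, Option.bind_some, e2]
  | @rfind f _ ihf =>
    obtain ⟨φ, hφ, h1, h2⟩ := ihf
    let ix : List Bool → ℕ → ℕ := fun l a =>
      (List.range l.length).findIdx fun i => decide ((φ l (Nat.pair a i)).getD 0 = 0)
    have hix : Primrec₂ ix := by
      refine Primrec.to₂ (f := fun q : List Bool × ℕ => (List.range q.1.length).findIdx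
        fun i => decide ((φ q.1 (Nat.pair q.2 i)).getD 0 = 0)) ?_
      refine Primrec.list_findIdx
        (Primrec.list_range.comp (Primrec.list_length.comp Primrec.fst)) ?_
      refine Primrec.to₂ (f := fun w : (List Bool × ℕ) × ℕ =>
        decide ((φ w.1.1 (Nat.pair w.1.2 w.2)).getD 0 = 0)) ?_
      refine PrimrecPred.decide (Primrec.eq.comp (Primrec.option_getD.comp ?_ (Primrec.const 0))
        (Primrec.const 0))
      exact hφ.comp (Primrec.fst.comp Primrec.fst)
        (Primrec₂.natPair.comp (Primrec.snd.comp Primrec.fst) Primrec.snd)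
    refine ⟨fun l a => if φ l (Nat.pair a (ix l a)) = some 0 then some (ix l a) else none,
      ?_, ?_, ?_⟩
    · refine Primrec.to₂ (f := fun q : List Bool × ℕ =>
        if φ q.1 (Nat.pair q.2 (ix q.1 q.2)) = some 0 then some (ix q.1 q.2) else none) ?_
      refine Primrec.ite (Primrec.eq.comp (hφ.comp Primrec.fst
        (Primrec₂.natPair.comp Primrec.snd hix)) (Primrec.const (some 0)))
        (Primrec.option_some.comp hix) (Primrec.const none)
    · intro l hl a v hv
      dsimp only at hv
      split_ifs at hv with h0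
      simp only [Option.some.injEq] at hv
      subst hv
      refine Nat.mem_rfind.2 ⟨?_, ?_⟩
      · simp only [Part.map_eq_map, Part.mem_map_iff]
        exact ⟨0, h1 l hl _ _ h0, by simp⟩
      · intro m hm
        have h3 := List.not_of_lt_findIdx hm
        simp only [List.getElem_range, decide_eq_false_iff_not] at h3
        simp only [Part.map_eq_map, Part.mem_map_iff]
        cases h4 : φ l (Nat.pair a m) with
        | none => simp [h4] at h3
        | some w =>
          simp only [h4, Option.getD_some] at h3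
          exact ⟨w, h1 l hl _ _ h4, by simp [h3]⟩
    · intro a v hv
      obtain ⟨hv1, hv2⟩ := Nat.mem_rfind.1 hv
      simp only [Part.map_eq_map, Part.mem_map_iff] at hv1 hv2
      obtain ⟨w, hw, hw0⟩ := hv1
      have hw0' : w = 0 := by simpa using hw0
      subst hw0'
      obtain ⟨k0, hk0⟩ := h2 _ _ hw
      have h5 : ∀ m, ∃ k : ℕ, m < v → ∀ l, Pre l B → k ≤ l.length →
          (φ l (Nat.pair a m)).getD 0 ≠ 0 := by
        intro m
        by_cases hm : m < v
        · obtain ⟨w, hw, hw0⟩ := hv2 hm
          obtain ⟨k, hk⟩ := h2 _ _ hw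
          refine ⟨k, fun _ l hl hkl => ?_⟩
          rw [hk l hl hkl]
          simpa using hw0
        · exact ⟨0, fun h => absurd h hm⟩
      choose K hK using h5
      refine ⟨k0 + v + 1 + ∑ j ∈ Finset.range v, K j, fun l hl hk => ?_⟩
      have hixv : ix l a = v := by
        have hv : v < (List.range l.length).length := by simp; omega
        refine (List.findIdx_eq hv).2 ⟨?_, fun j hj => ?_⟩
        · simp [hk0 l hl (by omega)]
        · have h4 : K j ≤ ∑ j ∈ Finset.range v, K j :=
            Finset.single_le_sum (f := K) (fun _ _ => Nat.zero_le _) (Finset.mem_range.2 hj)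
          simpa using hK j hj l hl (by omega)
      dsimp only
      rw [hixv, if_pos (hk0 l hl (by omega))]

lemma red_of_recursiveIn {A B : G} (h : Nat.RecursiveIn {orc B} (orc A)) : Red A B := by
  obtain ⟨φ, hφ, h1, h2⟩ := exists_appr h
  refine Red.of_opt (f := fun l n => (φ l n).map fun v => decide (v = 1)) ?_ ⟨?_, ?_⟩
  · exact ((Primrec.option_map₁ (PrimrecPred.decide
      (Primrec.eq.comp Primrec.id (Primrec.const 1)))).comp hφ).to₂
  · intro l hl n v hv
    obtain ⟨w, hw, rfl⟩ := Option.map_eq_some_iff.1 hv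
    have := h1 l hl n w hw
    simp only [orc, Part.mem_some_iff] at this
    subst this
    cases A n <;> simp
  · intro n
    obtain ⟨k, hk⟩ := h2 n (A n).toNat (by simp [orc])
    exact ⟨k, fun l hl hkl => by simp [hk l hl hkl]⟩

/-- Total functions recursive in an oracle. -/
def TotIn (B : G) (f : ℕ → ℕ) : Prop := Nat.RecursiveIn {orc B} (fun n => Part.some (f n))

namespace TotIn

variable {B : G} {f g : ℕ → ℕ}

lemma prim (hf : Primrec f) : TotIn B f :=
  (Primrec.nat_iff.1 hf).recursiveIn

lemma orac : TotIn B (fun n => (B n).toNat) := Nat.RecursiveIn.oracle _ rfl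

lemma comp (hf : TotIn B f) (hg : TotIn B g) : TotIn B (fun n => f (g n)) :=
  (Nat.RecursiveIn.comp hf hg).of_eq fun n => by simp

lemma pair (hf : TotIn B f) (hg : TotIn B g) : TotIn B (fun n => Nat.pair (f n) (g n)) :=
  (Nat.RecursiveIn.pair hf hg).of_eq fun n => by simp [Seq.seq]

lemma of_eq (hf : TotIn B f) (h : ∀ n, f n = g n) : TotIn B g := (funext h : f = g) ▸ hf

lemma prec (hf : TotIn B f) (hg : TotIn B g) : TotIn B (fun p =>
    Nat.rec (motive := fun _ => ℕ) (f p.unpair.1)
      (fun y IH => g (Nat.pair p.unpair.1 (Nat.pair y IH))) p.unpair.2) :=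
  (Nat.RecursiveIn.prec hf hg).of_eq fun p => by
    dsimp only
    generalize p.unpair.1 = a
    generalize p.unpair.2 = n
    induction n with
    | zero => rfl
    | succ n ih => simp only [ih]; simp

lemma find (hf : TotIn B f) (h : ∀ a, ∃ n, f (Nat.pair a n) = 0) :
    TotIn B (fun a => Nat.find (h a)) :=
  (Nat.RecursiveIn.rfind hf).of_eq fun a => by
    refine Part.eq_some_iff.2 (Nat.mem_rfind.2 ⟨?_, ?_⟩)
    · simpa using Nat.find_spec (h a)
    · intro m hm
      simpa using Nat.find_min (h a) hm

lemma pre_code : TotIn B (fun k => Encodable.encode (pre B k)) := by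
  have hc : Primrec fun p : ℕ => Encodable.encode
      (((Encodable.decode (α := List Bool) p.unpair.1).getD []) ++ [decide (p.unpair.2 = 1)]) := by
    refine Primrec.encode.comp (Primrec.list_concat.comp ?_ ?_)
    · exact Primrec.option_getD.comp (Primrec.decode.comp (Primrec.fst.comp Primrec.unpair))
        (Primrec.const [])
    · exact PrimrecPred.decide
        (Primrec.eq.comp (Primrec.snd.comp Primrec.unpair) (Primrec.const 1))
  have h1 : TotIn B (fun q : ℕ => q.unpair.2.unpair.2) :=
    prim (Primrec.snd.comp (Primrec.unpair.comp (Primrec.snd.comp Primrec.unpair)))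
  have h2 : TotIn B (fun q : ℕ => (B q.unpair.2.unpair.1).toNat) :=
    orac.comp (prim (Primrec.fst.comp (Primrec.unpair.comp (Primrec.snd.comp Primrec.unpair))))
  have h3 := (prim hc).comp (h1.pair h2)
  have h4 := (prec (prim (Primrec.const (Encodable.encode ([] : List Bool)))) h3).comp
    (prim (Primrec₂.natPair.comp (Primrec.const 0) Primrec.id))
  refine h4.of_eq fun k => ?_
  simp only [id, Nat.unpair_pair]
  induction k with
  | zero => rfl
  | succ k ih =>
    simp only [ih, Encodable.encodek, Option.getD_some]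
    congr 1
    simp only [pre, List.range_succ, List.map_append, List.map_cons, List.map_nil]
    congr 2
    cases B k <;> simp

end TotIn

lemma recursiveIn_of_red {A B : G} (h : Red A B) : Nat.RecursiveIn {orc B} (orc A) := by
  obtain ⟨φ, hφ, h⟩ := h
  have hd : Primrec fun c : ℕ => φ ((Encodable.decode (α := List Bool) c).getD []) :=
    hφ.comp (Primrec.option_getD.comp Primrec.decode (Primrec.const []))
  have h1 : Primrec fun p : ℕ => (p.unpair.1 + 1) -
      (φ ((Encodable.decode (α := List Bool) p.unpair.2).getD [])).length :=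
    Primrec.nat_sub.comp (Primrec.succ.comp (Primrec.fst.comp Primrec.unpair))
      (Primrec.list_length.comp (hd.comp (Primrec.snd.comp Primrec.unpair)))
  have h2 : Primrec fun p : ℕ =>
      ((φ ((Encodable.decode (α := List Bool) p.unpair.2).getD [])).getD p.unpair.1 false).toNat :=
    (Primrec.dom_bool Bool.toNat).comp ((Primrec.list_getD false).comp
      (hd.comp (Primrec.snd.comp Primrec.unpair)) (Primrec.fst.comp Primrec.unpair))
  have h3 : TotIn B fun p : ℕ => (p.unpair.1 + 1) - (φ (pre B p.unpair.2)).length :=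
    ((TotIn.prim h1).comp ((TotIn.prim (Primrec.fst.comp Primrec.unpair)).pair
      (TotIn.pre_code.comp (TotIn.prim (Primrec.snd.comp Primrec.unpair))))).of_eq
      fun p => by simp
  have hex : ∀ a, ∃ n, (fun p : ℕ => (p.unpair.1 + 1) - (φ (pre B p.unpair.2)).length)
      (Nat.pair a n) = 0 := by
    intro a
    obtain ⟨k, hk⟩ := h.2 (a + 1)
    have := hk _ (pre_Pre B k) (by simp)
    exact ⟨k, by simp only [Nat.unpair_pair]; omega⟩
  have h4 := h3.find hex
  have h5 := (TotIn.prim h2).comp ((TotIn.prim Primrec.id).pair (TotIn.pre_code.comp h4))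
  refine h5.of_eq (g := fun n => (A n).toNat) fun n => ?_
  simp only [id, Nat.unpair_pair, Encodable.encodek, Option.getD_some]
  have h6 := Nat.find_spec (hex n)
  simp only [Nat.unpair_pair] at h6
  rw [(h.1 _ (pre_Pre B _)).getD (by omega)]

lemma turingReducible_iff {A B : G} : TuringReducible (orc A) (orc B) ↔ Red A B := by
  rw [TuringReducible, RecursiveIn.iff_nat]
  exact ⟨red_of_recursiveIn, recursiveIn_of_red⟩

end Crest.Agent.R292
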