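import Crest.Agent.R292.Alg

/-!
The core argument: generic uniform reductions along `x + b`, `x + t b` and `x + z b` allow one to
read off the digits of `z`.
-/

set_option autoImplicit false

namespace Crest.Agent.R292

open Topology Filter Set TopologicalSpace PiNat Function

/-- Parameter space. -/
abbrev PP : Type := ℕ → G

/-- Generic parameters can be eliminated from a reduction to `F u`. -/
def Elim (F : G → G) : Prop :=
  ∀ V : Set G, IsOpen V → V.Nonempty → ∀ y w : G,
    (∀ᶠ u in residual G, u ∈ V → Red y (jn (F u) w)) → Red y w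

/-- Finite join of the images of the first `n` parameters and `w`. -/
def J (Fc : ℕ → G → G) (w : G) : ℕ → PP → G
  | 0, _ => w
  | n + 1, g => jn (Fc n (g n)) (J Fc w n g)

lemma J_congr (Fc : ℕ → G → G) (w : G) (n : ℕ) {g g' : PP} (h : ∀ i < n, g i = g' i) :
    J Fc w n g = J Fc w n g' := by
  induction n with
  | zero => rfl
  | succ n ih => simp only [J]; rw [h n (by omega), ih fun i hi => h i (by omega)]

lemma ured_J_w (Fc : ℕ → G → G) (w : G) (n : ℕ) (S : Set PP) :
    URed S (fun _ => w) (J Fc w n) := by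
  induction n with
  | zero => exact URed.refl _ _
  | succ n ih => exact ih.trans (URed.right S (fun g => Fc n (g n)) (J Fc w n))

lemma ured_J (Fc : ℕ → G → G) (w : G) {i n : ℕ} (hi : i < n) (S : Set PP) :
    URed S (fun g => Fc i (g i)) (J Fc w n) := by
  induction n with
  | zero => omega
  | succ n ih =>
    rcases Nat.lt_succ_iff_lt_or_eq.1 hi with h | rfl
    · exact (ih h).trans (URed.right S (fun g => Fc n (g n)) (J Fc w n))
    · exact URed.left S (fun g => Fc i (g i)) (J Fc w i)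

lemma ured_J_comp (Fc : ℕ → G → G) (w : G) {N : ℕ} {S : Set PP} {t : PP → PP}
    (ht : ∀ g i, i ≠ 0 → t g i = g i) (h0 : URed S (fun g => Fc 0 (t g 0)) (J Fc w N)) :
    ∀ n ≤ N, URed S (fun g => J Fc w n (t g)) (J Fc w N) := by
  intro n
  induction n with
  | zero => exact fun _ => ured_J_w Fc w N S
  | succ n ih =>
    intro hn
    refine URed.pair ?_ (ih (by omega))
    by_cases h : n = 0
    · subst h; exact h0
    · exact (ured_J Fc w (by omega : n < N) S).congr_left fun g _ => by rw [ht g n h]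

lemma gen_update (n : ℕ) : Gen fun q : PP × G => update q.1 n q.2 := by
  refine gen_of_add ?_ (continuous_fst.update n continuous_snd) ?_
  · intro x y
    funext i
    by_cases h : i = n
    · subst h; simp
    · simp [update_of_ne h]
  · intro g
    exact ⟨(g, g n), by simp⟩

lemma elim_all {Fc : ℕ → G → G} (hF : ∀ i, Elim (Fc i)) {V : ℕ → Set G} (hVo : ∀ i, IsOpen (V i))
    (hVn : ∀ i, (V i).Nonempty) {N : ℕ} {z w : G}
    (h : ∀ᶠ g in residual PP, (∀ i < N, g i ∈ V i) → Red z (J Fc w N g)) : Red z w := by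
  have key : ∀ n ≤ N, (∀ᶠ g in residual PP, (∀ i < N, g i ∈ V i) → Red z (J Fc w n g)) →
      Red z w := by
    intro n
    induction n with
    | zero =>
      intro _ h
      have ho : IsOpen {g : PP | ∀ i < N, g i ∈ V i} := by
        have : {g : PP | ∀ i < N, g i ∈ V i} = ⋂ i ∈ Finset.range N, (fun g => g i) ⁻¹' V i := by
          ext g; simp
        rw [this]
        exact isOpen_biInter_finset fun i _ => (hVo i).preimage (continuous_apply i)
      obtain ⟨g, hg1, hg2⟩ := exists_of_residual ho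
        ⟨fun i => (hVn i).some, fun i _ => (hVn i).some_mem⟩ h
      exact hg2 hg1
    | succ n ih =>
      intro hn h
      refine ih (by omega) ?_
      filter_upwards [kuratowski_ulam ((gen_update n).ev h)] with g hg hgV
      refine hF n (V n) (hVo n) (hVn n) _ _ ?_
      filter_upwards [hg] with x hx hxV
      have h1 := hx fun i hi => by
        by_cases hin : i = n
        · subst hin; simpa using hxV
        · simpa [update_of_ne hin] using hgV i hi
      simp only [J, update_self] at h1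
      rwa [J_congr Fc w n (g := update g n x) (g' := g)
        fun i hi => update_of_ne (by omega) _ _] at h1
  exact key N le_rfl h

/-- Translation of the state. -/
def tr (g : PP) : PP := update g 0 (g 0 + g 3 + g 4)

/-- Division of the state by the variable. -/
def st (g : PP) : PP := update g 0 (g 1 + L (g 0 + g 1))

/-- One step of the digit extraction. -/
def step (g : PP) : PP := if g 0 0 = true then st (tr g) else st g

/-- Translation of the state by `z` times the unit. -/
def tz (z : G) (g : PP) : PP := update g 0 (g 0 + M z (g 3 + g 4))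

lemma step_ne (g : PP) {i : ℕ} (hi : i ≠ 0) : step g i = g i := by
  unfold step st tr
  split_ifs <;> simp [update_of_ne hi]

lemma iter_step_ne (n : ℕ) (g : PP) {i : ℕ} (hi : i ≠ 0) : step^[n] g i = g i := by
  induction n with
  | zero => rfl
  | succ n ih => rw [iterate_succ_apply', step_ne _ hi, ih]

lemma step_zero (g : PP) :
    step g 0 = g 1 + L (g 0 + g 1) + (if g 0 0 = true then L (g 3 + g 4) else 0) := by
  unfold step st tr
  split_ifs
  · simp only [update_self, ne_eq, one_ne_zero, not_false_eq_true, update_of_ne, L_add]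
    abel
  · simp

lemma gen_shear {c : PP → G} (hadd : ∀ x y, c (x + y) = c x + c y) (hc : Continuous c)
    (hs : ∀ g : PP, ∃ x, c (update g 0 x) = g 0) : Gen fun g : PP => update g 0 (c g) := by
  refine gen_of_add ?_ (continuous_id.update 0 hc) ?_
  · intro x y
    funext i
    by_cases h : i = 0
    · subst h; simp [hadd]
    · simp [update_of_ne h]
  · intro g
    obtain ⟨x, hx⟩ := hs g
    exact ⟨update g 0 x, by simp [hx]⟩

lemma gen_tr : Gen tr := by
  refine gen_shear (c := fun g => g 0 + g 3 + g 4) ?_ (by fun_prop) ?_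
  · intro x y; simp only [Pi.add_apply]; abel
  · intro g
    refine ⟨g 0 + g 4 + g 3, ?_⟩
    simp [add_add_cancel]

lemma gen_st : Gen st := by
  refine gen_shear (c := fun g => g 1 + L (g 0 + g 1)) ?_ (by fun_prop) ?_
  · intro x y; simp only [Pi.add_apply, L_add]; abel
  · intro g
    refine ⟨T (g 0 + g 1) + g 1, ?_⟩
    simp only [update_self, ne_eq, one_ne_zero, not_false_eq_true, update_of_ne, add_add_cancel,
      L_T]
    rw [add_comm (g 1), add_add_cancel]

lemma gen_step : Gen step := (gen_st.comp gen_tr).ite gen_st fun g => g 0 0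

lemma gen_tz (z : G) : Gen (tz z) := by
  refine gen_shear (c := fun g => g 0 + M z (g 3 + g 4)) ?_ (by fun_prop) ?_
  · intro x y; simp only [Pi.add_apply, M_add]; abel
  · intro g
    refine ⟨g 0 + M z (g 3 + g 4), ?_⟩
    simp [add_add_cancel]

lemma gen_pair {i j : ℕ} (hij : i ≠ j) : Gen fun g : PP => (g i, g j) := by
  refine gen_of_add (fun _ _ => rfl) (by fun_prop) ?_
  rintro ⟨x, y⟩
  exact ⟨update (update 0 i x) j y, by simp [update_of_ne hij]⟩

lemma gen_pair_add : Gen fun p : G × G => (p.1, p.2 + p.1) := by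
  refine gen_of_add ?_ (by fun_prop) ?_
  · intro x y; simp only [Prod.fst_add, Prod.snd_add, Prod.mk_add_mk]; congr 1; abel
  · rintro ⟨x, y⟩
    exact ⟨(x, y + x), by simp [add_add_cancel]⟩

lemma gen_tri {i : ℕ} (hi0 : i ≠ 0) (hi4 : i ≠ 4) :
    Gen fun g : PP => (g 0 + g i + g 4, g 4) := by
  refine gen_of_add ?_ (by fun_prop) ?_
  · intro x y; simp only [Pi.add_apply, Prod.mk_add_mk]; congr 1; abel
  · rintro ⟨x, y⟩
    refine ⟨update (update 0 0 (x + y)) 4 y, ?_⟩
    simp [update_of_ne hi0, update_of_ne hi4, add_add_cancel]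

lemma gen_S2 : Gen fun g : PP => (g 1, g 2 + L (g 0 + g 1)) := by
  refine gen_of_add ?_ (by fun_prop) ?_
  · intro x y; simp only [Pi.add_apply, Prod.mk_add_mk, L_add]; congr 1; abel
  · rintro ⟨x, y⟩
    refine ⟨update (update (update 0 0 x) 1 x) 2 y, ?_⟩
    simp [add_self, L_zero]

lemma gen_S4 : Gen fun g : PP => (g 1 + L (g 0 + g 1), g 2 + L (g 0 + g 1)) := by
  refine gen_of_add ?_ (by fun_prop) ?_
  · intro x y; simp only [Pi.add_apply, Prod.mk_add_mk, L_add]; congr 1 <;> abel
  · rintro ⟨x, y⟩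
    refine ⟨update (update (update 0 0 x) 1 x) 2 y, ?_⟩
    simp [add_self, L_zero]

lemma digits (z : G) (g : PP) (h : (g 3 + g 4) 0 = true) (n : ℕ) :
    step^[n] (tz z g) 0 + step^[n] g 0 = M (L^[n] z) (g 3 + g 4) := by
  induction n with
  | zero =>
    simp only [iterate_zero, id, tz, update_self]
    rw [add_comm (g 0), add_add_cancel]
  | succ n ih =>
    have h0 := congrFun ih 0
    rw [M_zero_apply, h, Bool.and_true, Pi.add_apply] at h0
    have h1 := congrArg L ih
    rw [L_M, L_add] at h1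
    rw [iterate_succ_apply', iterate_succ_apply', iterate_succ_apply', step_zero, step_zero]
    simp only [iter_step_ne _ _ (one_ne_zero), iter_step_ne _ _ (by omega : 3 ≠ 0),
      iter_step_ne _ _ (by omega : 4 ≠ 0), L_add] at h1 ⊢
    have e1 : tz z g 1 = g 1 := by simp [tz]
    have e3 : tz z g 3 = g 3 := by simp [tz]
    have e4 : tz z g 4 = g 4 := by simp [tz]
    rw [e1, e3, e4]
    set a := step^[n] (tz z g) 0
    set b := step^[n] g 0
    set d := L (g 3) + L (g 4)
    have h2 : M (L (L^[n] z)) (g 3 + g 4) =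
        L a + L b + (if (L^[n] z) 0 = true then d else 0) := by
      rw [h1, add_add_cancel]
    rw [h2, ← h0]
    have e5 : g 1 + (L a + L (g 1)) + (if a 0 = true then d else 0) +
        (g 1 + (L b + L (g 1)) + if b 0 = true then d else 0) =
        L a + L b + ((if a 0 = true then d else 0) + (if b 0 = true then d else 0)) +
          (g 1 + g 1) + (L (g 1) + L (g 1)) := by abel
    rw [e5, add_self, add_self, add_zero, add_zero]
    congr 1
    cases a 0 <;> cases b 0 <;> simp [add_self, Bool.add_eq_xor]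

lemma iterate_L (z : G) (n : ℕ) : (L^[n] z) 0 = z n := by
  suffices ∀ k, (L^[n] z) k = z (k + n) by simpa using this 0
  induction n with
  | zero => simp
  | succ n ih => intro k; rw [iterate_succ_apply', L, ih]; congr 1; omega

lemma exists_reps (m : ℕ) : ∃ (N : ℕ) (ρ : ℕ → G), (∀ j, ρ j 0 = false) ∧
    ∀ r : G, r 0 = false → ∃ j < N, r ∈ cylinder (ρ j) m := by
  refine ⟨2 ^ m, fun j n => decide (n ≠ 0) && j.testBit n, by simp, fun r hr => ?_⟩
  refine ⟨Nat.ofBits fun i : Fin m => r i, Nat.ofBits_lt_two_pow _, fun i hi => ?_⟩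
  dsimp only
  rw [Nat.testBit_ofBits_lt _ _ hi]
  by_cases h : i = 0
  · subst h; simp [hr]
  · simp [h]

section Core

variable {F₁ F₂ F₃ F₄ F₅ : G → G} {z w : G} {E : Set (G × G)}

lemma ured_trans {ι : Type} {S : Set ι} {B u b b' : ι → G}
    (U1 : URed E (fun p => F₃ (p.1 + p.2)) (fun p => jn (F₁ p.1) (F₂ p.2)))
    (U2 : URed E (fun p => F₁ p.1) (fun p => jn (F₃ (p.1 + p.2)) (F₂ p.2)))
    (hu : URed S (fun i => F₁ (u i)) B) (hb : URed S (fun i => F₂ (b i)) B)
    (hb' : URed S (fun i => F₂ (b' i)) B)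
    (h1 : ∀ i ∈ S, (u i, b i) ∈ E) (h2 : ∀ i ∈ S, (u i + b i + b' i, b' i) ∈ E) :
    URed S (fun i => F₁ (u i + b i + b' i)) B := by
  have h3 := (U1.index (fun i => (u i, b i)) h1).trans (hu.pair hb)
  refine (U2.index (fun i => (u i + b i + b' i, b' i)) h2).trans (URed.pair ?_ hb')
  exact h3.congr_left fun i _ => by simp only [add_add_cancel]

lemma ured_st {ι : Type} {S : Set ι} {B u a b : ι → G}
    (U1 : URed E (fun p => F₃ (p.1 + p.2)) (fun p => jn (F₁ p.1) (F₂ p.2)))
    (U2 : URed E (fun p => F₁ p.1) (fun p => jn (F₃ (p.1 + p.2)) (F₂ p.2)))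
    (U3 : URed E (fun p => F₄ (p.1 + T p.2)) (fun p => jn (F₁ p.1) (F₂ p.2)))
    (U4 : URed E (fun p => F₂ p.2) (fun p => jn (F₄ (p.1 + T p.2)) (F₁ p.1)))
    (hu : URed S (fun i => F₁ (u i)) B) (ha : URed S (fun i => F₁ (a i)) B)
    (hb : URed S (fun i => F₂ (b i)) B)
    (h0 : ∀ i ∈ S, (u i + a i) 0 = false)
    (h1 : ∀ i ∈ S, (u i, b i) ∈ E) (h2 : ∀ i ∈ S, (a i, b i + L (u i + a i)) ∈ E)
    (h3 : ∀ i ∈ S, (a i, b i) ∈ E)
    (h4 : ∀ i ∈ S, (a i + L (u i + a i), b i + L (u i + a i)) ∈ E) :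
    URed S (fun i => F₁ (a i + L (u i + a i))) B := by
  have k1 := (U3.index (fun i => (u i, b i)) h1).trans (hu.pair hb)
  have k2 : URed S (fun i => F₂ (b i + L (u i + a i))) B := by
    refine (U4.index (fun i => (a i, b i + L (u i + a i))) h2).trans (URed.pair ?_ ha)
    refine k1.congr_left fun i hi => ?_
    simp only [T_add, T_L (h0 i hi)]
    congr 1
    rw [show a i + (T (b i) + (u i + a i)) = u i + T (b i) + a i + a i by abel, add_add_cancel]
  have k3 := (U1.index (fun i => (a i, b i)) h3).trans (ha.pair hb)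
  refine (U2.index (fun i => (a i + L (u i + a i), b i + L (u i + a i))) h4).trans
    (URed.pair ?_ k2)
  refine k3.congr_left fun i _ => ?_
  simp only
  congr 1
  rw [show a i + L (u i + a i) + (b i + L (u i + a i)) =
    a i + b i + L (u i + a i) + L (u i + a i) by abel, add_add_cancel]

theorem core (hE : ∀ᶠ p in residual (G × G), p ∈ E)
    (U1 : URed E (fun p => F₃ (p.1 + p.2)) (fun p => jn (F₁ p.1) (F₂ p.2)))
    (U2 : URed E (fun p => F₁ p.1) (fun p => jn (F₃ (p.1 + p.2)) (F₂ p.2)))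
    (U3 : URed E (fun p => F₄ (p.1 + T p.2)) (fun p => jn (F₁ p.1) (F₂ p.2)))
    (U4 : URed E (fun p => F₂ p.2) (fun p => jn (F₄ (p.1 + T p.2)) (F₁ p.1)))
    (U5 : URed E (fun p => F₅ (p.1 + M z p.2)) (fun p => jn (jn (F₁ p.1) (F₂ p.2)) w))
    (U6 : URed E (fun p => F₁ p.1) (fun p => jn (jn (F₅ (p.1 + M z p.2)) (F₂ p.2)) w))
    {m₀ : ℕ} {c : Bool} (H1 : ∀ᶠ u in residual G, u 0 = false → F₁ u m₀ = c)
    {κ : G} {m : ℕ} (hκ : κ 0 = true) (hm : 0 < m)
    (H2 : ∀ᶠ u in residual G, u ∈ cylinder κ m → F₁ u m₀ = !c)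
    (EL₁ : Elim F₁) (EL₂ : Elim F₂) : Red z w := by
  obtain ⟨N, ρ, hρ0, hρ⟩ := exists_reps m
  let Fc : ℕ → G → G := fun i => if i ≤ 1 then F₁ else F₂
  let V : ℕ → Set G := fun i => match i with
    | 0 => univ
    | 1 => cylinder 0 1
    | 2 => univ
    | 3 => cylinder 1 1
    | 4 => cylinder 0 m
    | j + 5 => cylinder (ρ j) m
  have hVo : ∀ i, IsOpen (V i) := by
    intro i
    match i with
    | 0 => exact isOpen_univ
    | 1 => exact isOpen_cylinder _ _ _
    | 2 => exact isOpen_univ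
    | 3 => exact isOpen_cylinder _ _ _
    | 4 => exact isOpen_cylinder _ _ _
    | j + 5 => exact isOpen_cylinder _ _ _
  have hVn : ∀ i, (V i).Nonempty := by
    intro i
    match i with
    | 0 => exact univ_nonempty
    | 1 => exact ⟨_, self_mem_cylinder _ _⟩
    | 2 => exact univ_nonempty
    | 3 => exact ⟨_, self_mem_cylinder _ _⟩
    | 4 => exact ⟨_, self_mem_cylinder _ _⟩
    | j + 5 => exact ⟨_, self_mem_cylinder _ _⟩
  refine elim_all (Fc := Fc) (fun i => by simp only [Fc]; split_ifs <;> assumption) hVo hVn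
    (N := N + 5) ?_
  let C : G → Prop := fun u => (u 0 = false → F₁ u m₀ = c) ∧ (u ∈ cylinder κ m → F₁ u m₀ = !c)
  have hC : ∀ᶠ u in residual G, C u := H1.and H2
  let TOK : ℕ → PP → Prop := fun i g => (g 0, g i) ∈ E ∧ (g 0 + g i + g 4, g 4) ∈ E
  let SOK : PP → Prop := fun g => (g 0, g 2) ∈ E ∧ (g 1, g 2 + L (g 0 + g 1)) ∈ E ∧
    (g 1, g 2) ∈ E ∧ (g 1 + L (g 0 + g 1), g 2 + L (g 0 + g 1)) ∈ E
  let Good : PP → Prop := fun g =>
    (∀ j, TOK (j + 5) g ∧ C (g 0 + g (j + 5) + g 4)) ∧ TOK 3 g ∧ SOK g ∧ SOK (tr g)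
  have hTOK : ∀ i, i ≠ 0 → i ≠ 4 → ∀ᶠ g in residual PP, TOK i g := fun i h0 h4 =>
    ((gen_pair (Ne.symm h0)).ev hE).and ((gen_tri h0 h4).ev hE)
  have hSOK : ∀ᶠ g in residual PP, SOK g :=
    ((gen_pair (by omega)).ev hE).and ((gen_S2.ev hE).and
      (((gen_pair (by omega)).ev hE).and (gen_S4.ev hE)))
  have hGood : ∀ᶠ g in residual PP, Good g := by
    refine (eventually_countable_forall.2 fun j => ?_).and
      ((hTOK 3 (by omega) (by omega)).and (hSOK.and (gen_tr.ev hSOK)))
    exact (hTOK (j + 5) (by omega) (by omega)).and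
      ((gen_fst.comp (gen_tri (i := j + 5) (by omega) (by omega))).ev hC)
  have hGood' : ∀ᶠ g in residual PP, ∀ n, Good (step^[n] g) :=
    eventually_countable_forall.2 fun n => (gen_step.iterate n).ev hGood
  let S : Set PP := {g | (∀ i < N + 5, g i ∈ V i) ∧ ∀ n, Good (step^[n] g)}
  have hVS : ∀ {t : PP → PP}, (∀ g i, i ≠ 0 → t g i = g i) → ∀ g : PP, (∀ i < N + 5, g i ∈ V i) →
      ∀ i < N + 5, t g i ∈ V i := by
    intro t ht g hg i hi
    by_cases h : i = 0
    · subst h; exact mem_univ _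
    · rw [ht g i h]; exact hg i hi
  have hS : ∀ g ∈ S, step g ∈ S := fun g hg =>
    ⟨hVS (fun g i hi => step_ne g hi) g hg.1, fun n => by
      rw [← iterate_succ_apply]; exact hg.2 _⟩
  have hSG : ∀ g ∈ S, Good g := fun g hg => hg.2 0
  have h10 : ∀ g ∈ S, g 1 0 = false := fun g hg => hg.1 1 (by omega) 0 (by omega)
  have h30 : ∀ g ∈ S, g 3 0 = true := fun g hg => hg.1 3 (by omega) 0 (by omega)
  have h4 : ∀ g ∈ S, ∀ i < m, g 4 i = false := fun g hg => hg.1 4 (by omega)
  have h5 : ∀ g ∈ S, ∀ j < N, ∀ i < m, g (j + 5) i = ρ j i :=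
    fun g hg j hj => hg.1 (j + 5) (by omega)
  have hF1 : ∀ (S : Set PP) i, i ≤ 1 → URed S (fun g => F₁ (g i)) (J Fc w (N + 5)) :=
    fun S i hi => (ured_J Fc w (by omega : i < N + 5) S).congr_left fun g _ => by
      simp only [Fc, if_pos hi]
  have hF2 : ∀ (S : Set PP) i, 1 < i → i < N + 5 →
      URed S (fun g => F₂ (g i)) (J Fc w (N + 5)) :=
    fun S i hi hi' => (ured_J Fc w hi' S).congr_left fun g _ => by
      simp only [Fc, if_neg (not_le.2 hi)]
  have hT : ∀ i, 1 < i → i < N + 5 → ∀ S' : Set PP, (∀ g ∈ S', TOK i g) →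
      URed S' (fun g => F₁ (g 0 + g i + g 4)) (J Fc w (N + 5)) := fun i h1 h2 S' hS' =>
    ured_trans U1 U2 (hF1 S' 0 (by omega)) (hF2 S' i h1 h2) (hF2 S' 4 (by omega) (by omega))
      (fun g hg => (hS' g hg).1) (fun g hg => (hS' g hg).2)
  have hbit : URed S (fun g _ => g 0 0) (J Fc w (N + 5)) := by
    refine (URed.exists_lt (β := fun j g => xor (F₁ (g 0 + g (j + 5) + g 4) m₀) c) N
      fun j hj => ?_).congr_left ?_
    · exact URed.op2 xor ((hT (j + 5) (by omega) (by omega) S
        fun g hg => ((hSG g hg).1 j).1).bit m₀) (URed.const S c _)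
    · intro g hg
      funext n
      rw [Bool.eq_iff_iff, decide_eq_true_eq]
      constructor
      · rintro ⟨j, hj, h⟩
        by_contra hc
        have h1 := ((hSG g hg).1 j).2.1 (by
          simp only [Pi.add_apply]
          rw [h4 g hg 0 hm, h5 g hg j hj 0 hm, hρ0, Bool.eq_false_iff.2 hc]; rfl)
        rw [h1] at h
        simp at h
      · intro h
        obtain ⟨j, hj, hr⟩ := hρ (g 0 + κ) (by simp only [Pi.add_apply]; rw [h, hκ]; rfl)
        refine ⟨j, hj, ?_⟩
        have h1 := ((hSG g hg).1 j).2.2 (by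
          intro i hi
          simp only [Pi.add_apply]
          rw [h4 g hg i hi, h5 g hg j hj i hi, ← hr i hi]
          simp only [Pi.add_apply]
          cases g 0 i <;> cases κ i <;> rfl)
        rw [h1]
        cases c <;> rfl
  have hstep0 : URed S (fun g => F₁ (step g 0)) (J Fc w (N + 5)) := by
    refine URed.cases hbit ?_ ?_
    · refine (ured_st (u := fun g => g 0) (a := fun g => g 1) (b := fun g => g 2) U1 U2 U3 U4
        (hF1 _ 0 (by omega)) (hF1 _ 1 (by omega)) (hF2 _ 2 (by omega) (by omega)) ?_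
        (fun g hg => (hSG g hg.1).2.2.1.1) (fun g hg => (hSG g hg.1).2.2.1.2.1)
        (fun g hg => (hSG g hg.1).2.2.1.2.2.1)
        (fun g hg => (hSG g hg.1).2.2.1.2.2.2)).congr_left ?_
      · intro g hg
        simp only [Pi.add_apply]
        rw [hg.2, h10 g hg.1]; rfl
      · intro g hg
        simp [step, st, hg.2]
    · refine (ured_st (u := fun g => g 0 + g 3 + g 4) (a := fun g => g 1) (b := fun g => g 2)
        U1 U2 U3 U4 (hT 3 (by omega) (by omega) _ fun g hg => (hSG g hg.1).2.1)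
        (hF1 _ 1 (by omega)) (hF2 _ 2 (by omega) (by omega)) ?_
        (fun g hg => by simpa [tr] using (hSG g hg.1).2.2.2.1)
        (fun g hg => by simpa [tr] using (hSG g hg.1).2.2.2.2.1)
        (fun g hg => by simpa [tr] using (hSG g hg.1).2.2.2.2.2.1)
        (fun g hg => by simpa [tr] using (hSG g hg.1).2.2.2.2.2.2)).congr_left ?_
      · intro g hg
        simp only [Pi.add_apply]
        rw [hg.2, h10 g hg.1, h30 g hg.1, h4 g hg.1 0 hm]; rfl
      · intro g hg
        simp [step, st, tr, hg.2]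
  have hstep : URed S (fun g => J Fc w (N + 5) (step g)) (J Fc w (N + 5)) :=
    ured_J_comp Fc w (fun g i hi => step_ne g hi) hstep0 _ le_rfl
  have hD := URed.iter hS hstep hbit
  let Z : Set PP := {g | (g 0, g 3) ∈ E ∧ (tz z g 0, tz z g 4) ∈ E}
  have hZ : ∀ᶠ g in residual PP, g ∈ Z :=
    ((gen_pair (by omega)).ev hE).and (((gen_pair (by omega)).comp (gen_tz z)).ev hE)
  have htz : ∀ g i, i ≠ 0 → tz z g i = g i := fun g i hi => by simp [tz, update_of_ne hi]
  have hZ0 : URed Z (fun g => F₁ (tz z g 0)) (J Fc w (N + 5)) := by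
    have k1 := (U5.index (fun g : PP => (g 0, g 3)) fun g (hg : g ∈ Z) => hg.1).trans
      (((hF1 Z 0 (by omega)).pair (hF2 Z 3 (by omega) (by omega))).pair (ured_J_w Fc w _ Z))
    refine (U6.index (fun g : PP => (tz z g 0, tz z g 4)) fun g (hg : g ∈ Z) => hg.2).trans
      (URed.pair (URed.pair (k1.congr_left fun g _ => ?_)
        ((hF2 Z 4 (by omega) (by omega)).congr_left fun g _ => ?_)) (ured_J_w Fc w _ Z))
    · simp only [htz g 4 (by omega)]
      simp only [tz, update_self, M_add]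
      rw [← add_assoc, add_add_cancel]
    · simp only [htz g 4 (by omega)]
  have hZJ : URed Z (fun g => J Fc w (N + 5) (tz z g)) (J Fc w (N + 5)) :=
    ured_J_comp Fc w htz hZ0 _ le_rfl
  filter_upwards [hGood', (gen_tz z).ev hGood', hZ] with g hg1 hg2 hg3 hgV
  have hgS : g ∈ S := ⟨hgV, hg1⟩
  have hgS' : tz z g ∈ S := ⟨hVS htz g hgV, hg2⟩
  have r1 := hD.red hgS
  have r2 := (hD.red hgS').trans (hZJ.red hg3)
  have r3 := r2.add r1
  convert r3 using 1
  funext n
  have hd : (g 3 + g 4) 0 = true := by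
    simp only [Pi.add_apply]; rw [h30 g hgS, h4 g hgS 0 hm]; rfl
  have := congrFun (digits z g hd n) 0
  rw [M_zero_apply, hd, Bool.and_true, iterate_L] at this
  exact this.symm

end Core

end Crest.Agent.R292
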