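import Crest.Agent.R292.Core
import Crest.Agent.R292.A1

/-!
Every automorphism of the degrees is inflationary.
-/

set_option autoImplicit false

namespace Crest.Agent.R292

open Topology Filter Set TopologicalSpace PiNat Function

lemma emb_add (x b : G) (k : ℕ) (u v : G) : emb x k u + emb b k v = emb (x + b) k (u + v) := by
  simp only [emb, sh_add]; abel

lemma emb_add_T (x b : G) (k : ℕ) (u v : G) :
    emb x k u + T (emb b k v) = emb (x + T b) k (u + T v) := by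
  simp only [emb, sh_add, T_add, T_sh]; abel

lemma emb_add_M (z x b : G) (k : ℕ) (u v : G) :
    emb x k u + M z (emb b k v) = emb (x + M z b) k (u + M z v) := by
  simp only [emb, sh_add, M_add, M_sh]; abel

namespace Aut

variable {p q : G → G}

lemma elim_emb (h : Aut p q) {f : G → G} {x : G} {k : ℕ}
    (hB : EvNM (fun y => f y = p y) (cylinder x k)) : Elim fun u => f (emb x k u) := by
  intro V hV hVn y w hy
  have h1 := residual_push (isOpenEmbedding_emb x k).isInducing hy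
  have h2 := hB (emb x k '' V) ((isOpenEmbedding_emb x k).isOpenMap V hV) (hVn.image _)
    (by rintro _ ⟨u, _, rfl⟩; exact emb_mem x k u)
  refine h.elim ((h2.and_eventually h1).mono ?_)
  rintro _ ⟨⟨⟨u, hu, rfl⟩, h3⟩, h4⟩
  rw [← h3]
  exact h4 u rfl hu

lemma exists_bit (h : Aut p q) {f : G → G} (hf : Measurable f) {x₀ : G} {k₀ : ℕ}
    (hB : EvNM (fun y => f y = p y) (cylinder x₀ k₀)) :
    ∃ x ∈ cylinder x₀ k₀, ∃ k, k₀ ≤ k ∧ ∃ (m₀ : ℕ) (c : Bool),
      (∀ᶠ u in residual G, u 0 = false → f (emb x k u) m₀ = c) ∧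
      ∃ (κ : G) (m : ℕ), κ 0 = true ∧ 0 < m ∧
        ∀ᶠ u in residual G, u ∈ cylinder κ m → f (emb x k u) m₀ = !c := by
  classical
  have h1 : ∃ m₀, ¬∃ c, ∀ᶠ y in residual G, y ∈ cylinder x₀ k₀ → f y m₀ = c := by
    by_contra hc
    simp only [not_exists, not_forall, not_not] at hc
    choose c hc using hc
    have h2 := hB _ (isOpen_cylinder _ x₀ k₀) ⟨_, self_mem_cylinder _ _⟩ Subset.rfl
    obtain ⟨y, ⟨⟨hy1, hy2⟩, hy3⟩, hy4⟩ := ((h2.and_eventually
      (eventually_countable_forall.2 hc)).and_eventually (h.eventually_ne c)).exists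
    exact hy4 (hy2 ▸ funext fun m => hy3 m hy1)
  obtain ⟨m₀, hm₀⟩ := h1
  have hmeas : ∀ c, MeasurableSet {y | f y m₀ = c} := fun c =>
    measurableSet_setOfPred.2 (((measurable_pi_apply m₀).comp hf).eq_const c)
  have h2 : ∃ c, ∃ᶠ y in residual G, y ∈ cylinder x₀ k₀ ∧ f y m₀ = c :=
    frequently_exists_countable ((freq_open (isOpen_cylinder _ x₀ k₀)
      ⟨_, self_mem_cylinder _ _⟩).mono fun y hy => ⟨_, hy, rfl⟩)
  obtain ⟨c', hc'⟩ := h2
  obtain ⟨U, hU, hUn, hUc⟩ := exists_open_of_freq hc'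
    (((isOpen_cylinder _ x₀ k₀).measurableSet.inter (hmeas c')).baireMeasurableSet)
  obtain ⟨x, hxU, hx⟩ := exists_of_residual hU hUn hUc
  have hx0 := (hx hxU).1
  obtain ⟨k, hk⟩ := exists_cylinder_subset hU hxU
  have hex : ∃ k, k₀ ≤ k ∧ ∃ c, ∀ᶠ y in residual G, y ∈ cylinder x k → f y m₀ = c :=
    ⟨k₀ + k, by omega, c', hUc.mono fun y hy hy' =>
      (hy (hk (cylinder_anti x (by omega) hy'))).2⟩
  obtain ⟨hk1, c, hc⟩ := Nat.find_spec hex
  have hne : Nat.find hex ≠ k₀ := by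
    intro he
    rw [he, mem_cylinder_iff_eq.1 hx0] at hc
    exact hm₀ ⟨c, hc⟩
  obtain ⟨k₁, hk₁⟩ : ∃ k₁, Nat.find hex = k₁ + 1 := ⟨Nat.find hex - 1, by omega⟩
  have hmin := Nat.find_min hex (m := k₁) (by omega)
  rw [hk₁] at hc hk1
  have H1 : ∀ᶠ u in residual G, u 0 = false → f (emb x k₁ u) m₀ = c :=
    ((gen_emb x k₁).ev hc).mono fun u hu h0 => hu (emb_mem_succ x k₁ h0)
  refine ⟨x, hx0, k₁, by omega, m₀, c, H1, ?_⟩
  have h3 : ∃ᶠ u in residual G, f (emb x k₁ u) m₀ = !c := by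
    intro hc'
    refine hmin ⟨by omega, c, ?_⟩
    filter_upwards [residual_push (isOpenEmbedding_emb x k₁).isInducing hc'] with y hy hyx
    rw [← range_emb] at hyx
    obtain ⟨u, rfl⟩ := hyx
    simpa using hy u rfl
  obtain ⟨U', hU', hUn', hUc'⟩ := exists_open_of_freq h3
    ((isOpenEmbedding_emb x k₁).continuous.measurable (hmeas (!c))).baireMeasurableSet
  obtain ⟨κ, hκU, hκ1, hκ2⟩ := exists_of_residual hU' hUn' (hUc'.and H1)
  obtain ⟨m, hm⟩ := exists_cylinder_subset hU' hκU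
  refine ⟨κ, m + 1, ?_, by omega, hUc'.mono fun u hu hu' =>
    hu (hm (cylinder_anti κ (by omega) hu'))⟩
  by_contra h0
  have h4 := hκ2 (by simpa using h0)
  rw [hκ1 hκU] at h4
  simp at h4

theorem red_self (h : Aut p q) (z : G) : Red z (p z) := by
  obtain ⟨f, hfm, hf⟩ := h.exists_borel
  let E0 : PR → PR → PR → PR → PR → PR → PR → PR → PR → PR → PR → G × G → Prop :=
    fun j1 j2 j3 j4 j5 φ1 φ2 φ3 φ4 φ5 φ6 t =>
      Rz φ1.1 (jn (f j1 t.1) (f j2 t.2)) (f j3 (t.1 + t.2)) ∧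
      Rz φ2.1 (jn (f j3 (t.1 + t.2)) (f j2 t.2)) (f j1 t.1) ∧
      Rz φ3.1 (jn (f j1 t.1) (f j2 t.2)) (f j4 (t.1 + T t.2)) ∧
      Rz φ4.1 (jn (f j4 (t.1 + T t.2)) (f j1 t.1)) (f j2 t.2) ∧
      Rz φ5.1 (jn (jn (f j1 t.1) (f j2 t.2)) (p z)) (f j5 (t.1 + M z t.2)) ∧
      Rz φ6.1 (jn (jn (f j5 (t.1 + M z t.2)) (f j2 t.2)) (p z)) (f j1 t.1)
  have hall : ∀ t : G × G, ∃ j1 j2 j3 j4 j5 φ1 φ2 φ3 φ4 φ5 φ6,
      f j1 t.1 = p t.1 ∧ f j2 t.2 = p t.2 ∧ E0 j1 j2 j3 j4 j5 φ1 φ2 φ3 φ4 φ5 φ6 t := by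
    rintro ⟨x, b⟩
    obtain ⟨j1, h1⟩ := hf x
    obtain ⟨j2, h2⟩ := hf b
    obtain ⟨j3, h3⟩ := hf (x + b)
    obtain ⟨j4, h4⟩ := hf (x + T b)
    obtain ⟨j5, h5⟩ := hf (x + M z b)
    obtain ⟨φ1, k1⟩ := red_iff_PR.1 (h.red_jn (C := x + b) ((Red.left x b).add (Red.right x b)))
    obtain ⟨φ2, k2⟩ := red_iff_PR.1 (h.red_jn (C := x) (A := x + b) (B := b) (by
      have := (Red.left (x + b) b).add (Red.right (x + b) b)
      rwa [add_add_cancel] at this))
    obtain ⟨φ3, k3⟩ := red_iff_PR.1 (h.red_jn (C := x + T b)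
      ((Red.left x b).add ((red_T b).trans (Red.right x b))))
    obtain ⟨φ4, k4⟩ := red_iff_PR.1 (h.red_jn (C := b) (A := x + T b) (B := x) (by
      have := (Red.left (x + T b) x).add (Red.right (x + T b) x)
      rw [show x + T b + x = T b by rw [add_comm x, add_add_cancel]] at this
      exact (red_of_T b).trans this))
    obtain ⟨φ5, k5⟩ := red_iff_PR.1 (h.red_jn3 (C := x + M z b) (A := x) (B := b) (D := z)
      (((Red.left x b).trans (Red.left _ _)).add
        ((red_M z b).trans (Red.jn_mono (Red.right x b) (Red.refl z)))))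
    obtain ⟨φ6, k6⟩ := red_iff_PR.1 (h.red_jn3 (C := x) (A := x + M z b) (B := b) (D := z) (by
      have := ((Red.left (x + M z b) b).trans (Red.left _ z)).add
        ((red_M z b).trans (Red.jn_mono (Red.right (x + M z b) b) (Red.refl z)))
      rwa [add_add_cancel] at this))
    refine ⟨j1, j2, j3, j4, j5, φ1, φ2, φ3, φ4, φ5, φ6, h1, h2, ?_⟩
    simp only [E0, h1, h2, h3, h4, h5]
    exact ⟨k1, k2, k3, k4, k5, k6⟩
  have h0 := (freq_open (X := G × G) isOpen_univ univ_nonempty).mono fun t _ => hall t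
  obtain ⟨j1, h0⟩ := frequently_exists_countable h0
  obtain ⟨j2, h0⟩ := frequently_exists_countable h0
  obtain ⟨j3, h0⟩ := frequently_exists_countable h0
  obtain ⟨j4, h0⟩ := frequently_exists_countable h0
  obtain ⟨j5, h0⟩ := frequently_exists_countable h0
  obtain ⟨φ1, h0⟩ := frequently_exists_countable h0
  obtain ⟨φ2, h0⟩ := frequently_exists_countable h0
  obtain ⟨φ3, h0⟩ := frequently_exists_countable h0
  obtain ⟨φ4, h0⟩ := frequently_exists_countable h0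
  obtain ⟨φ5, h0⟩ := frequently_exists_countable h0
  obtain ⟨φ6, h0⟩ := frequently_exists_countable h0
  obtain ⟨O, hO, ⟨⟨x₀, b₀⟩, hO0⟩, hev⟩ := exists_evNM h0
  obtain ⟨k₀, hk₀⟩ := exists_cylinder_prod_subset hO hO0
  have hE0 : ∀ᶠ t in residual (G × G), t ∈ O → E0 j1 j2 j3 j4 j5 φ1 φ2 φ3 φ4 φ5 φ6 t := by
    refine (hev.mono Subset.rfl fun t ht => ht.2.2).residual hO ?_
    refine MeasurableSet.baireMeasurableSet (measurableSet_setOfPred.2 ?_)
    have m1 : Measurable fun t : G × G => f j1 t.1 := (hfm _).comp measurable_fst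
    have m2 : Measurable fun t : G × G => f j2 t.2 := (hfm _).comp measurable_snd
    have m3 : Measurable fun t : G × G => f j3 (t.1 + t.2) :=
      (hfm _).comp (Continuous.measurable (by fun_prop))
    have m4 : Measurable fun t : G × G => f j4 (t.1 + T t.2) :=
      (hfm _).comp (Continuous.measurable (by fun_prop))
    have m5 : Measurable fun t : G × G => f j5 (t.1 + M z t.2) :=
      (hfm _).comp (Continuous.measurable (by fun_prop))
    exact (measurable_Rz _ (measurable_jn m1 m2) m3).and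
      ((measurable_Rz _ (measurable_jn m3 m2) m1).and
      ((measurable_Rz _ (measurable_jn m1 m2) m4).and
      ((measurable_Rz _ (measurable_jn m4 m1) m2).and
      ((measurable_Rz _ (measurable_jn (measurable_jn m1 m2) measurable_const) m5).and
      (measurable_Rz _ (measurable_jn (measurable_jn m5 m2) measurable_const) m1)))))
  have hB1 : EvNM (fun y => f j1 y = p y) (cylinder x₀ k₀) := by
    intro V hV hVn hVc
    have := hev (V ×ˢ cylinder b₀ k₀) (hV.prod (isOpen_cylinder _ _ _))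
      (hVn.prod ⟨_, self_mem_cylinder _ _⟩) ((prod_mono hVc Subset.rfl).trans hk₀)
    exact Tendsto.frequently gen_fst (this.mono fun t ht => ⟨ht.1.1, ht.2.1⟩)
  have hB2 : EvNM (fun y => f j2 y = p y) (cylinder b₀ k₀) := by
    intro V hV hVn hVc
    have := hev (cylinder x₀ k₀ ×ˢ V) ((isOpen_cylinder _ _ _).prod hV)
      (Set.Nonempty.prod ⟨_, self_mem_cylinder _ _⟩ hVn) ((prod_mono Subset.rfl hVc).trans hk₀)
    exact Tendsto.frequently gen_snd (this.mono fun t ht => ⟨ht.1.2, ht.2.2.1⟩)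
  obtain ⟨x, hx, k, hk, m₀, c, H1, κ, m, hκ, hm, H2⟩ := h.exists_bit (hfm j1) hB1
  have hxc : cylinder x k ⊆ cylinder x₀ k₀ := by
    rw [← mem_cylinder_iff_eq.1 hx]; exact cylinder_anti x hk
  have hbc : cylinder b₀ k ⊆ cylinder b₀ k₀ := cylinder_anti b₀ hk
  have hgen : Gen (Prod.map (emb x k) (emb b₀ k)) :=
    tendsto_residual_of_isOpenMap
      ((isOpenEmbedding_emb x k).continuous.prodMap (isOpenEmbedding_emb b₀ k).continuous)
      ((isOpenEmbedding_emb x k).isOpenMap.prodMap (isOpenEmbedding_emb b₀ k).isOpenMap)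
  refine core (F₁ := fun u => f j1 (emb x k u)) (F₂ := fun v => f j2 (emb b₀ k v))
    (F₃ := fun s => f j3 (emb (x + b₀) k s)) (F₄ := fun s => f j4 (emb (x + T b₀) k s))
    (F₅ := fun s => f j5 (emb (x + M z b₀) k s))
    (E := {t | E0 j1 j2 j3 j4 j5 φ1 φ2 φ3 φ4 φ5 φ6 (emb x k t.1, emb b₀ k t.2)})
    ?_ ⟨φ1.1, φ1.2, fun t ht => ?_⟩ ⟨φ2.1, φ2.2, fun t ht => ?_⟩ ⟨φ3.1, φ3.2, fun t ht => ?_⟩
    ⟨φ4.1, φ4.2, fun t ht => ?_⟩ ⟨φ5.1, φ5.2, fun t ht => ?_⟩ ⟨φ6.1, φ6.2, fun t ht => ?_⟩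
    H1 hκ hm H2 (h.elim_emb (hB1.mono hxc fun _ h => h)) (h.elim_emb (hB2.mono hbc fun _ h => h))
  · filter_upwards [hgen.ev hE0] with t ht
    exact ht (hk₀ ⟨hxc (emb_mem _ _ _), hbc (emb_mem _ _ _)⟩)
  · simpa only [emb_add] using ht.1
  · simpa only [emb_add] using ht.2.1
  · simpa only [emb_add_T] using ht.2.2.1
  · simpa only [emb_add_T] using ht.2.2.2.1
  · simpa only [emb_add_M] using ht.2.2.2.2.1
  · simpa only [emb_add_M] using ht.2.2.2.2.2

end Aut

end Crest.Agent.R292
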