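import Crest.Agent.R292.Basic
import Crest.Agent.R292.Baire

/-!
Measurability and category facts about string functionals.
-/

set_option autoImplicit false

namespace Crest.Agent.R292

open Topology Filter Set TopologicalSpace PiNat

/-- The countable type of primitive recursive string maps. -/
abbrev PR : Type := {φ : List Bool → List Bool // Primrec φ}

instance : Countable PR := by
  have h : ∀ φ : PR, ∃ c : Nat.Partrec.Code, c.eval = fun n =>
      Part.bind (Encodable.decode (α := List Bool) n) fun a =>
        (Part.some (φ.1 a)).map Encodable.encode := fun φ =>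
    Nat.Partrec.Code.exists_code.1 φ.2.to_comp
  choose c hc using h
  refine Function.Injective.countable (f := c) fun φ ψ hφψ => ?_
  apply Subtype.ext
  funext a
  have h1 := congrFun (hc φ) (Encodable.encode a)
  have h2 := congrFun (hc ψ) (Encodable.encode a)
  rw [hφψ, h2] at h1
  simp only [Encodable.encodek, Part.coe_some, Part.bind_some, Part.map_some,
    Part.some_inj] at h1
  exact (Encodable.encode_injective h1).symm

lemma red_iff_PR {A B : G} : Red A B ↔ ∃ φ : PR, Rz φ.1 B A :=
  ⟨fun ⟨φ, h1, h2⟩ => ⟨⟨φ, h1⟩, h2⟩, fun ⟨φ, h⟩ => ⟨φ.1, φ.2, h⟩⟩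

section Meas

variable {α : Type} [MeasurableSpace α]

lemma measurable_Pre (l : List Bool) {A : α → G} (hA : Measurable A) :
    Measurable fun a => Pre l (A a) := by
  unfold Pre
  refine Measurable.forall fun i => Measurable.forall fun v => Measurable.imp measurable_const ?_
  exact ((measurable_pi_apply i).comp hA).eq_const v

lemma measurable_Rz (φ : List Bool → List Bool) {A B : α → G} (hB : Measurable B)
    (hA : Measurable A) : Measurable fun a => Rz φ (B a) (A a) := by
  unfold Rz
  refine Measurable.and ?_ ?_
  · exact Measurable.forall fun l => (measurable_Pre l hB).imp (measurable_Pre _ hA)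
  · exact Measurable.forall fun n => Measurable.exists fun k => Measurable.forall fun l =>
      (measurable_Pre l hB).imp measurable_const

lemma measurable_Red {A B : α → G} (hA : Measurable A) (hB : Measurable B) :
    Measurable fun a => Red (A a) (B a) := by
  simp_rw [red_iff_PR]
  exact Measurable.exists fun φ => measurable_Rz φ.1 hB hA

lemma measurable_decide {P : α → Prop} [DecidablePred P] (hP : Measurable P) :
    Measurable fun a => decide (P a) := by
  apply measurable_to_bool
  have : (fun a => decide (P a)) ⁻¹' {true} = {a | P a} := by ext a; simp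
  rw [this]
  exact measurableSet_setOfPred.2 hP

lemma continuous_jn : Continuous fun p : G × G => jn p.1 p.2 := by
  refine continuous_pi fun n => ?_
  unfold jn
  split_ifs <;> fun_prop

lemma measurable_jn {A B : α → G} (hA : Measurable A) (hB : Measurable B) :
    Measurable fun a => jn (A a) (B a) :=
  continuous_jn.measurable.comp (hA.prodMk hB)

open Classical in
/-- The limit of a string map along a point. -/
noncomputable def lim (φ : List Bool → List Bool) (B : G) : G :=
  fun m => decide (∃ k, (φ (pre B k))[m]? = some true)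

lemma Rz.lim_eq {φ : List Bool → List Bool} {B W : G} (h : Rz φ B W) : lim φ B = W := by
  classical
  funext m
  unfold lim
  rw [Bool.eq_iff_iff, decide_eq_true_eq]
  constructor
  · rintro ⟨k, hk⟩
    exact h.1 _ (pre_Pre B k) m _ hk
  · intro hm
    obtain ⟨k, hk⟩ := h.ev m
    exact ⟨k, by rw [hk _ (pre_Pre B k) (by simp), hm]⟩

lemma eq_pre_iff {l : List Bool} {B : G} {k : ℕ} : pre B k = l ↔ l.length = k ∧ Pre l B := by
  constructor
  · rintro rfl
    exact ⟨by simp, pre_Pre B k⟩
  · rintro ⟨rfl, h⟩
    apply List.ext_getElem?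
    intro i
    rw [getElem?_pre]
    split_ifs with hi
    · rw [h.get hi]
    · rw [List.getElem?_eq_none (by omega)]

lemma measurable_lim (φ : List Bool → List Bool) : Measurable (lim φ) := by
  classical
  refine measurable_pi_lambda _ fun m => ?_
  unfold lim
  refine measurable_decide ?_
  have : (fun B : G => ∃ k, (φ (pre B k))[m]? = some true) =
      fun B => ∃ l : List Bool, Pre l B ∧ (φ l)[m]? = some true := by
    funext B
    apply propext
    constructor
    · rintro ⟨k, hk⟩
      exact ⟨_, pre_Pre B k, hk⟩
    · rintro ⟨l, hl, hk⟩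
      exact ⟨l.length, by rwa [eq_pre_iff.2 ⟨rfl, hl⟩]⟩
  rw [this]
  exact Measurable.exists fun l => (measurable_Pre l measurable_id).and measurable_const

end Meas

/-- The graph of a string functional is nowhere dense. -/
lemma dense_compl_closure_graph (φ : List Bool → List Bool) :
    Dense (closure {p : G × G | Rz φ p.1 p.2})ᶜ := by
  rw [dense_iff_inter_open]
  rintro U hU ⟨⟨B₀, A₀⟩, h0⟩
  by_cases hc : ∃ p ∈ U, Rz φ p.1 p.2
  · obtain ⟨⟨B, A⟩, hp, hr⟩ := hc
    obtain ⟨k, hk⟩ := exists_cylinder_prod_subset hU hp
    obtain ⟨k', hk'⟩ := hr.ev k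
    refine ⟨(B, Function.update A k (!A k)),
      hk ⟨self_mem_cylinder _ _, update_mem_cylinder _ _ _⟩, ?_⟩
    intro hcl
    obtain ⟨⟨B', A'⟩, ⟨h1, h2⟩, h3⟩ := mem_closure_iff.1 hcl
      (cylinder B k' ×ˢ cylinder (Function.update A k (!A k)) (k + 1))
      ((isOpen_cylinder _ _ _).prod (isOpen_cylinder _ _ _))
      ⟨self_mem_cylinder _ _, self_mem_cylinder _ _⟩
    have h4 : Pre (pre B k') B' := (pre_Pre B k').of_eq fun i hi => h1 i (by simpa using hi)
    have h5 := h3.1 _ h4 k _ (hk' _ (pre_Pre B k') (by simp))
    have h6 := h2 k (by omega)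
    simp only [Function.update_self] at h5 h6
    rw [h5] at h6
    simp at h6
  · refine ⟨(B₀, A₀), h0, fun hcl => ?_⟩
    obtain ⟨p, h1, h2⟩ := mem_closure_iff.1 hcl U hU h0
    exact hc ⟨p, h1, h2⟩

lemma eventually_ne (A : G) : ∀ᶠ x in residual G, x ≠ A := by
  refine residual_of_dense_open isOpen_ne ?_
  rw [dense_iff_inter_open]
  rintro U hU ⟨x, hx⟩
  by_cases h : x = A
  · obtain ⟨k, hk⟩ := exists_cylinder_subset hU hx
    refine ⟨Function.update x k (!x k), hk (update_mem_cylinder _ _ _), fun h' => ?_⟩
    have := congrFun h' k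
    rw [← h] at this
    simp at this
  · exact ⟨x, hx, h⟩

lemma eventually_not_red (A : G) : ∀ᶠ x in residual G, ¬Red x A := by
  simp_rw [red_iff_PR, not_exists]
  refine eventually_countable_forall.2 fun φ => ?_
  filter_upwards [eventually_ne (lim φ.1 A)] with x hx hr
  exact hx hr.lim_eq.symm

/-- String level join. -/
def zip2 (γ l : List Bool) : List Bool :=
  (List.range (2 * min γ.length l.length)).map fun n =>
    if n % 2 = 0 then γ.getD (n / 2) false else l.getD (n / 2) false

lemma primrec_zip2 : Primrec₂ zip2 := by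
  refine Primrec.to₂ (f := fun p : List Bool × List Bool =>
    (List.range (2 * min p.1.length p.2.length)).map fun n =>
      if n % 2 = 0 then p.1.getD (n / 2) false else p.2.getD (n / 2) false) ?_
  refine Primrec.list_map (Primrec.list_range.comp (Primrec.nat_double.comp
    (Primrec.nat_min.comp (Primrec.list_length.comp Primrec.fst)
      (Primrec.list_length.comp Primrec.snd)))) ?_
  refine Primrec.to₂ (f := fun q : (List Bool × List Bool) × ℕ =>
    if q.2 % 2 = 0 then q.1.1.getD (q.2 / 2) false else q.1.2.getD (q.2 / 2) false) ?_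
  refine Primrec.ite (Primrec.eq.comp (Primrec.nat_mod.comp Primrec.snd (Primrec.const 2))
      (Primrec.const 0)) ?_ ?_
  · exact (Primrec.list_getD false).comp (Primrec.fst.comp Primrec.fst)
      (Primrec.nat_div.comp Primrec.snd (Primrec.const 2))
  · exact (Primrec.list_getD false).comp (Primrec.snd.comp Primrec.fst)
      (Primrec.nat_div.comp Primrec.snd (Primrec.const 2))

lemma length_zip2 (γ l : List Bool) : (zip2 γ l).length = 2 * min γ.length l.length := by
  simp [zip2]

lemma Pre.zip2 {γ l : List Bool} {g x : G} (h1 : Pre γ g) (h2 : Pre l x) :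
    Pre (zip2 γ l) (jn g x) := by
  intro i v hv
  unfold R292.zip2 at hv
  rw [List.getElem?_map] at hv
  by_cases hi : i < 2 * min γ.length l.length
  · rw [List.getElem?_range hi] at hv
    simp only [Option.map_some, Option.some.injEq] at hv
    unfold jn
    split_ifs at hv ⊢
    · rw [← hv, h1.getD (by omega)]
    · rw [← hv, h2.getD (by omega)]
  · rw [List.getElem?_eq_none (by rw [List.length_range]; omega)] at hv
    cases hv

/-- What is computable from `x` and nonmeagrely many `g` is computable from `x`. -/
lemma red_of_freq {y x : G} (h : ∃ᶠ g in residual G, Red y (jn g x)) : Red y x := by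
  simp_rw [red_iff_PR] at h
  obtain ⟨⟨φ, hφ⟩, h⟩ := frequently_exists_countable h
  obtain ⟨U, hU, ⟨g₁, hg₁⟩, hUc⟩ := exists_open_subset_closure h
  obtain ⟨g₀, hg₀U, hg₀⟩ := mem_closure_iff.1 (hUc hg₁) U hU hg₁
  obtain ⟨k₀, hk₀⟩ := exists_cylinder_subset hU hg₀U
  dsimp only [mem_ofPred_eq] at hg₀ hUc
  let F : List Bool → ℕ → ℕ → Option Bool := fun l n c =>
    (φ (zip2 (pre g₀ k₀ ++ (Encodable.decode (α := List Bool) c).getD []) l))[n]?
  have hF : Primrec fun q : (List Bool × ℕ) × ℕ => F q.1.1 q.1.2 q.2 := by
    refine Primrec.list_getElem?.comp (hφ.comp (primrec_zip2.comp ?_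
      (Primrec.fst.comp Primrec.fst))) (Primrec.snd.comp Primrec.fst)
    exact Primrec.list_append.comp (Primrec.const _)
      (Primrec.option_getD.comp (Primrec.decode.comp Primrec.snd) (Primrec.const []))
  have hsound : ∀ l, Pre l x → ∀ n c v, F l n c = some v → y n = v := by
    intro l hl n c v hv
    set γ := pre g₀ k₀ ++ (Encodable.decode (α := List Bool) c).getD [] with hγ
    let g' : G := fun i => γ.getD i false
    have hg' : g' ∈ cylinder g₀ k₀ := by
      intro i hi
      simp only [g', hγ]
      rw [List.getD_append _ _ _ _ (by simpa using hi), (pre_Pre g₀ k₀).getD (by simpa using hi)]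
    obtain ⟨g, hg1, hg2⟩ := mem_closure_iff.1 (hUc (hk₀ hg')) (cylinder g' γ.length)
      (isOpen_cylinder _ _ _) (self_mem_cylinder _ _)
    have hpre : Pre γ g := by
      intro i w hw
      have hi : i < γ.length := by
        by_contra hc
        rw [List.getElem?_eq_none (by omega)] at hw
        cases hw
      rw [hg1 i hi]
      simp only [g', List.getD_eq_getElem?_getD, hw, Option.getD_some]
    exact hg2.1 _ (hpre.zip2 hl) n v hv
  refine Red.of_opt (f := fun l n =>
    F l n ((List.range l.length).findIdx fun c => (F l n c).isSome)) ?_ ⟨?_, ?_⟩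
  · refine Primrec.to₂ (f := fun p : List Bool × ℕ =>
      F p.1 p.2 ((List.range p.1.length).findIdx fun c => (F p.1 p.2 c).isSome)) ?_
    have h1 : Primrec fun p : List Bool × ℕ =>
        (List.range p.1.length).findIdx fun c => (F p.1 p.2 c).isSome :=
      Primrec.list_findIdx (Primrec.list_range.comp (Primrec.list_length.comp Primrec.fst))
        (Primrec.option_isSome.comp hF).to₂
    exact hF.comp (Primrec.id.pair h1)
  · intro l hl n v hv
    exact hsound l hl n _ v hv
  · intro n
    obtain ⟨K, hK⟩ := hg₀.ev n
    let δ : List Bool := (pre g₀ (k₀ + K)).drop k₀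
    have hδ : pre g₀ k₀ ++ δ = pre g₀ (k₀ + K) := by
      have : pre g₀ k₀ = (pre g₀ (k₀ + K)).take k₀ := by
        simp only [pre, ← List.map_take, List.take_range]
        congr 2; omega
      rw [this]; exact List.take_append_drop _ _
    refine ⟨Encodable.encode δ + K + 1, fun l hl hk => ?_⟩
    have h1 : (F l n (Encodable.encode δ)).isSome := by
      simp only [F, Encodable.encodek, Option.getD_some, hδ]
      rw [hK _ ((pre_Pre g₀ _).zip2 hl) (by rw [length_zip2, length_pre]; omega)]
      rfl
    have h2 : ((List.range l.length).findIdx fun c => (F l n c).isSome) <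
        (List.range l.length).length :=
      List.findIdx_lt_length_of_exists ⟨Encodable.encode δ, by simp; omega, h1⟩
    have h3 := List.findIdx_getElem (w := h2)
    simpa using h3

end Crest.Agent.R292
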